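import Vale.Agent.P233.H768.E45
import Mathlib.Data.Finsupp.Encodable

/-!
# P233: `Blk_E45`
-/

set_option linter.all false

open MeasureTheory Set Filter Topology
open scoped InnerProductSpace

namespace Vale.Agent.P233.H768

variable {E : Type*} [NormedAddCommGroup E] [InnerProductSpace ℝ E]

theorem ae_Ioo_iff {q : ℝ → Prop} : (∀ᵐ t ∂(volume.restrict (Ioo (0:ℝ) 1)), q t) ↔
    ∀ᵐ t : ℝ, t ∈ Ioo (0:ℝ) 1 → q t := ae_restrict_iff' measurableSet_Ioo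

theorem SqI.of_bound {w : ℝ → E} {f : ℝ → ℝ}
    (hm : AEStronglyMeasurable w (volume.restrict (Ioo (0:ℝ) 1)))
    (hf : ∀ s ∈ Ioo (0:ℝ) 1, ∀ t ∈ Ioo (0:ℝ) 1, IntervalIntegrable f volume s t)
    (hle : ∀ᵐ t : ℝ, t ∈ Ioo (0:ℝ) 1 → ‖w t‖ ^ 2 ≤ f t) : SqI w where
  m := hm
  i s hs t ht := by
    have hsub : uIoc s t ⊆ Ioo (0:ℝ) 1 := uIoc_subset_uIcc.trans (uIcc_sub hs ht)
    refine (hf s hs t ht).mono_fun' ((hm.norm.pow 2).mono_measure
      (Measure.restrict_mono_set _ hsub)) ?_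
    rw [EventuallyLE, ae_restrict_iff' measurableSet_uIoc]
    filter_upwards [hle] with r hr hr2
    rw [Real.norm_eq_abs, abs_of_nonneg (by positivity)]
    exact hr (hsub hr2)

theorem cur_of_curveData {κ l : ℝ} {g a b : ℕ → ℝ → E} {v : ℝ → E} {Λ : ℝ → ℝ}
    {G : ℕ → ℕ → ℝ → ℝ} (D : CurveData κ l g a b v Λ G) :
    ∃ (p : ℕ → ℝ → ℝ) (k : ℕ), Cur κ l g a b v Λ G p k := by
  choose p hp1 hp2 using D.p_ac
  obtain ⟨k, hk⟩ := D.rank
  have hv : SqI v := SqI.of_bound D.mv (f := fun _ => l ^ 2) (fun _ _ _ _ =>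
    intervalIntegrable_const) (by
      filter_upwards [ae_Ioo_iff.1 D.vnorm] with t ht h
      rw [ht h])
  have ha : ∀ i, SqI (a i) := fun i => ⟨D.ma i, D.a_sq i⟩
  have hG : ∀ i j, LAC (G i j) (fun r => nn g a r i j) := fun i j => ⟨D.gram_int i j, D.gram_ac i j⟩
  have hGc : ∀ i, ContinuousOn (G i i) (Ioo 0 1) := fun i => (hG i i).cont
  have hgn : ∀ᵐ t : ℝ, ∀ i, t ∈ Ioo (0:ℝ) 1 → ‖g i t‖ ^ 2 = G i i t := by
    rw [ae_all_iff]
    intro i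
    filter_upwards [ae_Ioo_iff.1 (D.gram i i)] with t ht h
    rw [ht h, real_inner_self_eq_norm_sq]
  have hg : ∀ i, SqI (g i) := fun i => SqI.of_bound (D.mg i) (f := G i i)
    (fun s hs t ht => ((hGc i).mono (uIcc_sub hs ht)).intervalIntegrable) (by
      filter_upwards [hgn] with t ht h
      exact (ht i h).le)
  have hb1 : ∀ᵐ t : ℝ, ∀ i, t ∈ Ioo (0:ℝ) 1 → ‖b i t‖ ≤ Λ t * ‖g i t‖ := by
    filter_upwards [ae_Ioo_iff.1 D.bound] with t ht i h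
    have := ht h (Finsupp.single i 1)
    rwa [cmr_single, cmr_single, one_smul, one_smul] at this
  have hb : ∀ i, SqI (b i) := fun i => SqI.of_bound (D.mb i) (f := fun t => Λ t ^ 2 * G i i t)
    (fun s hs t ht => (D.Λ_sq s hs t ht).mul_continuousOn ((hGc i).mono (uIcc_sub hs ht))) (by
      filter_upwards [hgn, hb1] with t h1 h2 h
      rw [← h1 i h, ← mul_pow]
      exact pow_le_pow_left₀ (norm_nonneg _) (h2 i h) 2)
  have hp : ∀ i, LAC (p i) (fun r => ⟪a i r, v r⟫_ℝ) := fun i =>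
    ⟨(ha i).inner hv, hp2 i⟩
  have hgv : ∀ i j, ∀ s ∈ Ioo (0:ℝ) 1, ∀ t ∈ Ioo (0:ℝ) 1,
      IntervalIntegrable (fun r => ⟪g i r, v r⟫_ℝ * ⟪g j r, v r⟫_ℝ) volume s t := by
    intro i j s hs t ht
    have h1 := (((hp i).mul (hp j)).cont.mono (uIcc_sub hs ht)).intervalIntegrable
      (μ := volume)
    refine h1.congr_ae ?_
    have hsub : uIoc s t ⊆ Ioo (0:ℝ) 1 := uIoc_subset_uIcc.trans (uIcc_sub hs ht)
    rw [EventuallyEq, ae_restrict_iff' measurableSet_uIoc]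
    filter_upwards [ae_Ioo_iff.1 (hp1 i), ae_Ioo_iff.1 (hp1 j)] with r h1 h2 hr
    rw [h1 (hsub hr), h2 (hsub hr)]
  have hrint : ∀ i j, ∀ s ∈ Ioo (0:ℝ) 1, ∀ t ∈ Ioo (0:ℝ) 1,
      IntervalIntegrable (fun r => rr κ l g a b v r i j) volume s t := by
    intro i j s hs t ht
    unfold rr
    exact ((((hb i).inner (ha j) s hs t ht).const_mul 2).sub ((hb i).inner (hb j) s hs t ht)).sub
      (((((hg i).inner (hg j) s hs t ht).const_mul (l ^ 2)).sub (hgv i j s hs t ht)).const_mul κ)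
  have hqint : ∀ i j, ∀ s ∈ Ioo (0:ℝ) 1, ∀ t ∈ Ioo (0:ℝ) 1,
      IntervalIntegrable (fun r => ⟪b i r, g j r⟫_ℝ) volume s t := fun i j => (hb i).inner (hg j)
  refine ⟨p, k, D.l_nonneg, D.l_small, hG, hp, hk, hrint, hqint, ?_⟩
  have hgram : ∀ᵐ t : ℝ, ∀ i j, t ∈ Ioo (0:ℝ) 1 → G i j t = ⟪g i t, g j t⟫_ℝ := by
    rw [ae_all_iff]; intro i; rw [ae_all_iff]; intro j
    exact ae_Ioo_iff.1 (D.gram i j)
  have hpp : ∀ᵐ t : ℝ, ∀ i, t ∈ Ioo (0:ℝ) 1 → p i t = ⟪g i t, v t⟫_ℝ := by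
    rw [ae_all_iff]; intro i
    exact ae_Ioo_iff.1 (hp1 i)
  have hgood : ∀ᵐ t : ℝ, ∀ c : ℕ →₀ ℚ, t ∈ Ioo (0:ℝ) 1 →
      Good (fun t => ⟪cmb (fun i => b i t) c, cmb (fun i => g i t) c⟫_ℝ
    - ∫ r in (1 / 2 : ℝ)..t, qf (rr κ l g a b v r) c.support (fun i => (c i : ℝ))) t := by
    rw [ae_all_iff]; intro c
    have hint : ∀ s ∈ Ioo (0:ℝ) 1, ∀ t ∈ Ioo (0:ℝ) 1, IntervalIntegrable
        (fun r => qf (rr κ l g a b v r) c.support (fun i => (c i : ℝ))) volume s t :=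
      fun s hs t ht => intervalIntegrable_qf _ _ fun i j => hrint i j s hs t ht
    have hprim := LAC.prim hint
    refine ae_good ?_ ?_
    · intro s hs t ht
      refine IntervalIntegrable.sub ?_ ?_
      · simp only [cmb_inner]
        exact intervalIntegrable_qf _ _ fun i j => hqint i j s hs t ht
      · exact (hprim.cont.mono (uIcc_sub hs ht)).intervalIntegrable
    · filter_upwards [ae_Ioo_iff.1 (D.ricc c)] with s hs hs0
      have h1 := (ae_restrict_iff' measurableSet_Ioo).1 (hs hs0)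
      filter_upwards [h1] with t ht ht0
      have h2 := ht ht0
      have ht1 : t ∈ Ioo (0:ℝ) 1 := ⟨hs0.1.trans ht0.1, ht0.2⟩
      have h3 := hprim.eq s hs0 t ht1
      have e : ∫ r in s..t, (2 * ⟪cmb (fun i => b i r) c, cmb (fun i => a i r) c⟫_ℝ
          - ‖cmb (fun i => b i r) c‖ ^ 2
          - κ * (‖cmb (fun i => g i r) c‖ ^ 2 * l ^ 2 - ⟪cmb (fun i => g i r) c, v r⟫_ℝ ^ 2))
          = ∫ r in s..t, qf (rr κ l g a b v r) c.support (fun i => (c i : ℝ)) := by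
        congr 1
        ext r
        rw [qf_rr, cmb_lc, cmb_lc, cmb_lc]
      rw [e] at h2
      linarith
  filter_upwards [hgram, hpp, hgood, ae_Ioo_iff.1 D.vnorm, ae_Ioo_iff.1 D.v_span,
    ae_Ioo_iff.1 D.b_span, ae_Ioo_iff.1 D.symm, ae_Ioo_iff.1 D.bound]
    with t h1 h2 h3 h4 h5 h6 h7 h8 ht
  refine ⟨ht, ⟨h4 ht, h5 ht, h6 ht, h7 ht, h8 ht, ?_⟩, fun i j => h1 i j ht, fun i => h2 i ht,
    fun c => h3 c ht⟩
  have e : (fun i j => ⟪g i t, g j t⟫_ℝ) = fun i j => G i j t := by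
    ext i j; exact (h1 i j ht).symm
  rw [e]; exact hk t ht

theorem blk_E45 : Blk_E45 := by
  intro E _ _ _ κ l g a b v Λ G D
  obtain ⟨p, k, h⟩ := cur_of_curveData D
  rw [ae_Ioo_iff]
  filter_upwards [h.ae] with t ht ht0 c
  have hg := ht ht0
  have h1 := hg.pt.le_y t⁻¹ (Bf κ l t) (fs c.support (fun i => (c i : ℝ)))
  have h2 : yv t⁻¹ (Bf κ l t) l (fun i => g i t) (fun i => b i t) (v t) = 0 := h.zero t hg
  rw [h2, zero_mul, ← cmb_cmr, ← cmb_cmr, Dq] at h1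
  rw [Mv_eq]
  linarith

end Vale.Agent.P233.H768
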