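import Vale.Agent.P233.H768.Riccati5

/-!
# P233, block E45: matrix Riccati comparison along one curve
-/

set_option linter.all false

open MeasureTheory Set Filter Topology
open scoped InnerProductSpace

namespace Vale.Agent.P233.H768

variable {E : Type*} [NormedAddCommGroup E] [InnerProductSpace ℝ E]

/-- the derivative of the Gram matrix -/
noncomputable def nn (g a : ℕ → ℝ → E) (r : ℝ) (i j : ℕ) : ℝ :=
  ⟪a i r, g j r⟫_ℝ + ⟪g i r, a j r⟫_ℝ

/-- the matrix `M` -/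
noncomputable def MM (κ l : ℝ) (G : ℕ → ℕ → ℝ → ℝ) (p : ℕ → ℝ → ℝ) (t : ℝ) (i j : ℕ) : ℝ :=
  (1 / l ^ 2 * (p i t * p j t)) * t⁻¹ + Bf κ l t * (G i j t - 1 / l ^ 2 * (p i t * p j t))

/-- the derivative of the matrix `M` -/
noncomputable def MM' (κ l : ℝ) (g a : ℕ → ℝ → E) (v : ℝ → E) (G : ℕ → ℕ → ℝ → ℝ)
    (p : ℕ → ℝ → ℝ) (t : ℝ) (i j : ℕ) : ℝ :=
  (1 / l ^ 2 * (⟪a i t, v t⟫_ℝ * p j t + p i t * ⟪a j t, v t⟫_ℝ)) * t⁻¹
    + (1 / l ^ 2 * (p i t * p j t)) * (-t⁻¹ ^ 2)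
    + ((-Bf κ l t ^ 2 - κ * l ^ 2) * (G i j t - 1 / l ^ 2 * (p i t * p j t))
      + Bf κ l t * (nn g a t i j
        - 1 / l ^ 2 * (⟪a i t, v t⟫_ℝ * p j t + p i t * ⟪a j t, v t⟫_ℝ)))

/-- the right hand side of the Riccati inequality -/
noncomputable def rr (κ l : ℝ) (g a b : ℕ → ℝ → E) (v : ℝ → E) (t : ℝ) (i j : ℕ) : ℝ :=
  2 * ⟪b i t, a j t⟫_ℝ - ⟪b i t, b j t⟫_ℝ
    - κ * (l ^ 2 * ⟪g i t, g j t⟫_ℝ - ⟪g i t, v t⟫_ℝ * ⟪g j t, v t⟫_ℝ)

theorem qf_rr (κ l : ℝ) (g a b : ℕ → ℝ → E) (v : ℝ → E) (t : ℝ) (I : Finset ℕ) (x : ℕ → ℝ) :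
    qf (rr κ l g a b v t) I x = 2 * ⟪lc (fun i => b i t) I x, lc (fun i => a i t) I x⟫_ℝ
      - ‖lc (fun i => b i t) I x‖ ^ 2 - κ * (‖lc (fun i => g i t) I x‖ ^ 2 * l ^ 2
        - ⟪lc (fun i => g i t) I x, v t⟫_ℝ ^ 2) := by
  unfold rr
  rw [qf_sub, qf_sub, qf_smul, qf_smul, qf_sub, qf_smul, qf_inner (fun i => b i t) (fun i => a i t),
    qf_inner (fun i => b i t) (fun i => b i t), qf_inner (fun i => g i t) (fun i => g i t),
    qf_prod (fun i => ⟪g i t, v t⟫_ℝ) (fun i => ⟪g i t, v t⟫_ℝ),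
    lc_inner (fun i => g i t), real_inner_self_eq_norm_sq, real_inner_self_eq_norm_sq]
  ring

theorem qf_nn (g a : ℕ → ℝ → E) (t : ℝ) (I : Finset ℕ) (x : ℕ → ℝ) :
    qf (nn g a t) I x = 2 * ⟪lc (fun i => g i t) I x, lc (fun i => a i t) I x⟫_ℝ := by
  unfold nn
  rw [qf_add, qf_inner (fun i => a i t) (fun i => g i t),
    qf_inner (fun i => g i t) (fun i => a i t),
    real_inner_comm (lc (fun i => g i t) I x) (lc (fun i => a i t) I x)]
  ring

/-- the value of `M` -/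
theorem qf_MM {κ l : ℝ} {G : ℕ → ℕ → ℝ → ℝ} {p : ℕ → ℝ → ℝ} {t : ℝ} {g : ℕ → ℝ → E} {v : ℝ → E}
    (hG : ∀ i j, G i j t = ⟪g i t, g j t⟫_ℝ) (hp : ∀ i, p i t = ⟪g i t, v t⟫_ℝ)
    (I : Finset ℕ) (x : ℕ → ℝ) :
    qf (MM κ l G p t) I x = Mq t⁻¹ (Bf κ l t) l (‖lc (fun i => g i t) I x‖ ^ 2)
      ⟪lc (fun i => g i t) I x, v t⟫_ℝ := by
  have e : MM κ l G p t = fun i j => (1 / l ^ 2 * t⁻¹ - Bf κ l t * (1 / l ^ 2))
      * (⟪g i t, v t⟫_ℝ * ⟪g j t, v t⟫_ℝ) + Bf κ l t * ⟪g i t, g j t⟫_ℝ := by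
    ext i j
    rw [MM, hG, hp, hp]; ring
  rw [e, qf_add, qf_smul, qf_smul, qf_prod (fun i => ⟪g i t, v t⟫_ℝ) (fun i => ⟪g i t, v t⟫_ℝ),
    qf_inner (fun i => g i t) (fun i => g i t), lc_inner (fun i => g i t),
    real_inner_self_eq_norm_sq, Mq]
  ring

theorem qf_MM' {κ l : ℝ} {G : ℕ → ℕ → ℝ → ℝ} {p : ℕ → ℝ → ℝ} {t : ℝ} {g a : ℕ → ℝ → E} {v : ℝ → E}
    (hG : ∀ i j, G i j t = ⟪g i t, g j t⟫_ℝ) (hp : ∀ i, p i t = ⟪g i t, v t⟫_ℝ)
    (I : Finset ℕ) (x : ℕ → ℝ) :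
    qf (MM' κ l g a v G p t) I x =
      -t⁻¹ ^ 2 * (⟪lc (fun i => g i t) I x, v t⟫_ℝ ^ 2 / l ^ 2)
      + t⁻¹ * (2 * (⟪lc (fun i => g i t) I x, v t⟫_ℝ * ⟪lc (fun i => a i t) I x, v t⟫_ℝ) / l ^ 2)
      + (-Bf κ l t ^ 2 - κ * l ^ 2) * (‖lc (fun i => g i t) I x‖ ^ 2
        - ⟪lc (fun i => g i t) I x, v t⟫_ℝ ^ 2 / l ^ 2)
      + Bf κ l t * (2 * ⟪lc (fun i => g i t) I x, lc (fun i => a i t) I x⟫_ℝ
        - 2 * (⟪lc (fun i => g i t) I x, v t⟫_ℝ * ⟪lc (fun i => a i t) I x, v t⟫_ℝ) / l ^ 2) := by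
  have e : MM' κ l g a v G p t = fun i j =>
      (1 / l ^ 2 * t⁻¹ - Bf κ l t * (1 / l ^ 2)) * (⟪a i t, v t⟫_ℝ * ⟪g j t, v t⟫_ℝ)
      + (1 / l ^ 2 * t⁻¹ - Bf κ l t * (1 / l ^ 2)) * (⟪g i t, v t⟫_ℝ * ⟪a j t, v t⟫_ℝ)
      + (1 / l ^ 2 * (-t⁻¹ ^ 2) - (-Bf κ l t ^ 2 - κ * l ^ 2) * (1 / l ^ 2))
        * (⟪g i t, v t⟫_ℝ * ⟪g j t, v t⟫_ℝ)
      + (-Bf κ l t ^ 2 - κ * l ^ 2) * ⟪g i t, g j t⟫_ℝ
      + Bf κ l t * nn g a t i j := by
    ext i j
    rw [MM', hG, hp, hp]; ring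
  rw [e, qf_add, qf_add, qf_add, qf_add, qf_smul, qf_smul, qf_smul, qf_smul, qf_smul,
    qf_prod (fun i => ⟪a i t, v t⟫_ℝ) (fun i => ⟪g i t, v t⟫_ℝ),
    qf_prod (fun i => ⟪g i t, v t⟫_ℝ) (fun i => ⟪a i t, v t⟫_ℝ),
    qf_prod (fun i => ⟪g i t, v t⟫_ℝ) (fun i => ⟪g i t, v t⟫_ℝ),
    qf_inner (fun i => g i t) (fun i => g i t), lc_inner (fun i => g i t),
    lc_inner (fun i => a i t), real_inner_self_eq_norm_sq]
  rw [qf_nn]
  ring

/-- `M` is absolutely continuous -/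
theorem lac_MM {κ l : ℝ} (hl : 0 ≤ l) (hκ : √κ * l < Real.pi) {G : ℕ → ℕ → ℝ → ℝ}
    {p : ℕ → ℝ → ℝ} {g a : ℕ → ℝ → E} {v : ℝ → E}
    (hG : ∀ i j, LAC (G i j) (fun r => nn g a r i j)) (hp : ∀ i, LAC (p i) (fun r => ⟪a i r, v r⟫_ℝ))
    (i j : ℕ) : LAC (fun t => MM κ l G p t i j) (fun t => MM' κ l g a v G p t i j) := by
  have h1 := ((hp i).mul (hp j)).const_mul (1 / l ^ 2)
  have h2 := h1.mul lac_inv
  have h3 := (lac_Bf hl hκ).mul ((hG i j).sub h1)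
  exact h2.add h3

/-- the good times -/
structure GoodT (κ l : ℝ) (g a b : ℕ → ℝ → E) (v : ℝ → E) (Λ : ℝ → ℝ) (G : ℕ → ℕ → ℝ → ℝ)
    (p : ℕ → ℝ → ℝ) (k : ℕ) (t : ℝ) : Prop where
  mem : t ∈ Ioo (0:ℝ) 1
  pt : Pt l (Λ t) (fun i => g i t) (fun i => b i t) (v t) k
  hG : ∀ i j, G i j t = ⟪g i t, g j t⟫_ℝ
  hp : ∀ i, p i t = ⟪g i t, v t⟫_ℝ
  good : ∀ c : ℕ →₀ ℚ, Good (fun t => ⟪cmb (fun i => b i t) c, cmb (fun i => g i t) c⟫_ℝ
    - ∫ r in (1 / 2 : ℝ)..t, qf (rr κ l g a b v r) c.support (fun i => (c i : ℝ))) t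

/-- the largest eigenvalue -/
noncomputable def yy (κ l : ℝ) (g b : ℕ → ℝ → E) (v : ℝ → E) (t : ℝ) : ℝ :=
  yv t⁻¹ (Bf κ l t) l (fun i => g i t) (fun i => b i t) (v t)

/-- all that is used of the curve -/
structure Cur (κ l : ℝ) (g a b : ℕ → ℝ → E) (v : ℝ → E) (Λ : ℝ → ℝ) (G : ℕ → ℕ → ℝ → ℝ)
    (p : ℕ → ℝ → ℝ) (k : ℕ) : Prop where
  hl : 0 ≤ l
  hκ : √κ * l < Real.pi
  hG : ∀ i j, LAC (G i j) (fun r => nn g a r i j)
  hp : ∀ i, LAC (p i) (fun r => ⟪a i r, v r⟫_ℝ)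
  rank : ∀ t ∈ Ioo (0:ℝ) 1, RankEq (fun i j => G i j t) k
  rint : ∀ i j, ∀ s ∈ Ioo (0:ℝ) 1, ∀ t ∈ Ioo (0:ℝ) 1,
    IntervalIntegrable (fun r => rr κ l g a b v r i j) volume s t
  qint : ∀ i j, ∀ s ∈ Ioo (0:ℝ) 1, ∀ t ∈ Ioo (0:ℝ) 1,
    IntervalIntegrable (fun r => ⟪b i r, g j r⟫_ℝ) volume s t
  ae : ∀ᵐ t : ℝ, t ∈ Ioo (0:ℝ) 1 → GoodT κ l g a b v Λ G p k t

section cur

variable {κ l : ℝ} {g a b : ℕ → ℝ → E} {v : ℝ → E} {Λ : ℝ → ℝ} {G : ℕ → ℕ → ℝ → ℝ}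
  {p : ℕ → ℝ → ℝ} {k : ℕ}

theorem cmb_inner (c : ℕ →₀ ℚ) (u w : ℕ → E) :
    ⟪cmb u c, cmb w c⟫_ℝ = qf (fun i j => ⟪u i, w j⟫_ℝ) c.support (fun i => (c i : ℝ)) := by
  rw [qf_inner, cmb_lc, cmb_lc]

/-- the Riccati inequality for real coefficients and all good times -/
theorem Cur.ricc (h : Cur κ l g a b v Λ G p k) {s t : ℝ} (hs : GoodT κ l g a b v Λ G p k s)
    (ht : GoodT κ l g a b v Λ G p k t) (hst : s < t) (I : Finset ℕ) (x : ℕ → ℝ) :
    qf (fun i j => ⟪b i t, g j t⟫_ℝ) I x - qf (fun i j => ⟪b i s, g j s⟫_ℝ) I x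
      ≤ qf (fun i j => ∫ r in s..t, rr κ l g a b v r i j) I x := by
  have hcl : IsClosed {x : ℕ → ℝ | qf (fun i j => ⟪b i t, g j t⟫_ℝ) I x
      - qf (fun i j => ⟪b i s, g j s⟫_ℝ) I x
      ≤ qf (fun i j => ∫ r in s..t, rr κ l g a b v r i j) I x} :=
    isClosed_le ((continuous_qf _ I).sub (continuous_qf _ I)) (continuous_qf _ I)
  refine dense_rat.induction_on (p := fun x => qf (fun i j => ⟪b i t, g j t⟫_ℝ) I x
      - qf (fun i j => ⟪b i s, g j s⟫_ℝ) I x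
      ≤ qf (fun i j => ∫ r in s..t, rr κ l g a b v r i j) I x) x hcl ?_
  intro z
  set c : ℕ →₀ ℚ := ∑ i ∈ I, Finsupp.single i (z i) with hc
  have hint : ∀ s ∈ Ioo (0:ℝ) 1, ∀ t ∈ Ioo (0:ℝ) 1, IntervalIntegrable
      (fun r => qf (rr κ l g a b v r) c.support (fun i => (c i : ℝ))) volume s t :=
    fun s hs t ht => intervalIntegrable_qf _ _ fun i j => h.rint i j s hs t ht
  have hprim := LAC.prim hint
  have hF : ∀ s ∈ Ioo (0:ℝ) 1, ∀ t ∈ Ioo (0:ℝ) 1, IntervalIntegrable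
      (fun t => ⟪cmb (fun i => b i t) c, cmb (fun i => g i t) c⟫_ℝ
    - ∫ r in (1 / 2 : ℝ)..t, qf (rr κ l g a b v r) c.support (fun i => (c i : ℝ))) volume s t := by
    intro s hs t ht
    refine IntervalIntegrable.sub ?_ ?_
    · simp only [cmb_inner]
      exact intervalIntegrable_qf _ _ fun i j => h.qint i j s hs t ht
    · exact (hprim.cont.mono (uIcc_sub hs ht)).intervalIntegrable
  have h1 := Good.le hF hs.mem ht.mem hst (hs.good c) (ht.good c)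
  have h2 := hprim.eq s hs.mem t ht.mem
  have h3 : ⟪cmb (fun i => b i t) c, cmb (fun i => g i t) c⟫_ℝ
      - ⟪cmb (fun i => b i s) c, cmb (fun i => g i s) c⟫_ℝ
      ≤ ∫ r in s..t, qf (rr κ l g a b v r) c.support (fun i => (c i : ℝ)) := by
    linarith
  have e1 : ∀ r, qf (rr κ l g a b v r) c.support (fun i => (c i : ℝ))
      = qf (rr κ l g a b v r) I (fun i => (z i : ℝ)) := by
    intro r
    rw [qf_rr, qf_rr]
    have : ∀ w : ℕ → E, lc w c.support (fun i => (c i : ℝ)) = lc w I (fun i => (z i : ℝ)) := by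
      intro w
      rw [← cmb_lc, hc, cmb_single_sum]
    rw [this, this, this]
  have e2 : ∀ u w : ℕ → E, ⟪cmb u c, cmb w c⟫_ℝ = qf (fun i j => ⟪u i, w j⟫_ℝ) I
      (fun i => (z i : ℝ)) := by
    intro u w
    rw [qf_inner, hc, cmb_single_sum, cmb_single_sum]
  simp only [e1] at h3
  rw [e2, e2, integral_qf] at h3
  · exact h3
  · exact fun i j => h.rint i j s hs.mem t ht.mem

/-- **the increment of the largest eigenvalue** -/
theorem Cur.incr (h : Cur κ l g a b v Λ G p k) {t : ℝ} (ht : GoodT κ l g a b v Λ G p k t)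
    {I : Finset ℕ} (hI : Fr (fun i j => G i j t) k I) (hy : 0 < yy κ l g b v t) :
    ∃ x : ℕ → ℝ, (∀ i ∈ I, |x i| ≤ cb (fun i j => G i j t) I) ∧
      ‖lc (fun i => g i t) I x‖ = 1 ∧
      lc (fun i => b i t) I x = yy κ l g b v t • lc (fun i => g i t) I x
        + Mop t⁻¹ (Bf κ l t) l (v t) (lc (fun i => g i t) I x) ∧
      ∀ s, GoodT κ l g a b v Λ G p k s → s < t →
        yy κ l g b v t - yy κ l g b v s ≤ yy κ l g b v s *
          (qf (fun i j => G i j s) I x - qf (fun i j => G i j t) I x)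
          + (qf (MM κ l G p s) I x - qf (MM κ l G p t) I x
            + qf (fun i j => ∫ r in s..t, rr κ l g a b v r i j) I x) := by
  have hGe : (fun i j => G i j t) = fun i j => ⟪g i t, g j t⟫_ℝ := by
    ext i j; exact ht.hG i j
  rw [hGe] at hI
  obtain ⟨x, hx1, hx2, hx3⟩ := ht.pt.exists_max hI t⁻¹ (Bf κ l t) hy
  change _ = yy κ l g b v t • _ + _ at hx3
  refine ⟨x, by rw [hGe]; exact hx1, hx2, hx3, fun s hs hst => ?_⟩
  have h1 := h.ricc hs ht hst I x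
  have h2 := hs.pt.le_y s⁻¹ (Bf κ l s) (fs I x)
  rw [cmr_fs, cmr_fs, Dq] at h2
  rw [qf_inner (fun i => b i t) (fun i => g i t), qf_inner (fun i => b i s) (fun i => g i s)] at h1
  have h3 : ⟪lc (fun i => b i t) I x, lc (fun i => g i t) I x⟫_ℝ = yy κ l g b v t
      + qf (MM κ l G p t) I x := by
    rw [hx3, inner_add_left, real_inner_smul_left, Mop_inner_self, real_inner_self_eq_norm_sq,
      qf_MM ht.hG ht.hp, hx2]
    ring
  have hGs : (fun i j => G i j s) = fun i j => ⟪g i s, g j s⟫_ℝ := by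
    ext i j; exact hs.hG i j
  rw [qf_MM hs.hG hs.hp, hGs, hGe, qf_inner (fun i => g i s) (fun i => g i s),
    qf_inner (fun i => g i t) (fun i => g i t), real_inner_self_eq_norm_sq,
    real_inner_self_eq_norm_sq, hx2]
  rw [h3] at h1
  change _ ≤ yy κ l g b v s * _ at h2
  have h4 : yy κ l g b v s * (‖lc (fun i => g i s) I x‖ ^ 2 - 1 ^ 2)
      = yy κ l g b v s * ‖lc (fun i => g i s) I x‖ ^ 2 - yy κ l g b v s := by ring
  rw [h4]
  linarith

theorem exists_frame {G : ℕ → ℕ → ℝ} {k : ℕ} (h : RankEq G k) : ∃ I, Fr G k I := by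
  obtain ⟨I, h1, h2⟩ := h.1
  exact ⟨I, h1, h2⟩

/-- the derivative inequality -/
theorem Cur.derCtl (h : Cur κ l g a b v Λ G p k) {μ : ℝ → ℝ}
    (hμ : ∀ t ∈ Ioo (0:ℝ) 1, μ t ≤ t⁻¹ ∧ μ t ≤ Bf κ l t) :
    ∀ᵐ t : ℝ, t ∈ Ioo (0:ℝ) 1 → DerCtl (yy κ l g b v) μ {t | GoodT κ l g a b v Λ G p k t} t := by
  have h1 : ∀ᵐ t : ℝ, ∀ i j, t ∈ Ioo (0:ℝ) 1 → HasDerivAt (fun t => G i j t) (nn g a t i j) t := by
    rw [ae_all_iff]; intro i; rw [ae_all_iff]; intro j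
    exact (h.hG i j).ae_deriv
  have h2 : ∀ᵐ t : ℝ, ∀ i j, t ∈ Ioo (0:ℝ) 1 →
      HasDerivAt (fun t => MM κ l G p t i j) (MM' κ l g a v G p t i j) t := by
    rw [ae_all_iff]; intro i; rw [ae_all_iff]; intro j
    exact (lac_MM h.hl h.hκ h.hG h.hp i j).ae_deriv
  have h3 : ∀ᵐ t : ℝ, ∀ i j, t ∈ Ioo (0:ℝ) 1 →
      HasDerivAt (fun x => ∫ r in (1 / 2 : ℝ)..x, rr κ l g a b v r i j) (rr κ l g a b v t i j) t := by
    rw [ae_all_iff]; intro i; rw [ae_all_iff]; intro j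
    exact (LAC.prim (h.rint i j)).ae_deriv
  filter_upwards [h.ae, h1, h2, h3] with t hg0 h1 h2 h3 ht
  have hg := hg0 ht
  have hy0 : 0 ≤ yy κ l g b v t := hg.pt.y_nonneg _ _
  rcases hy0.eq_or_lt with hy | hy
  · refine ⟨fun _ => 0, fun _ => 0, 0, 0, ?_, by simp, by simp, by rw [← hy]; simp⟩
    have : ∀ᶠ s in 𝓝[<] t ⊓ 𝓟 {t | GoodT κ l g a b v Λ G p k t}, GoodT κ l g a b v Λ G p k s :=
      (inf_le_right : _ ≤ 𝓟 _) (mem_principal_self _)
    filter_upwards [this] with s hs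
    have := hs.pt.y_nonneg s⁻¹ (Bf κ l s)
    change 0 ≤ yy κ l g b v s at this
    rw [← hy]; linarith
  · obtain ⟨I, hI⟩ := exists_frame (h.rank t ht)
    obtain ⟨x, hx1, hx2, hx3, hx4⟩ := h.incr hg hI hy
    have d1 : HasDerivAt (fun s => qf (fun i j => G i j s) I x) (qf (nn g a t) I x) t :=
      hasDerivAt_qf I x fun i j => h1 i j ht
    have d2 : HasDerivAt (fun s => qf (MM κ l G p s) I x) (qf (MM' κ l g a v G p t) I x) t :=
      hasDerivAt_qf I x fun i j => h2 i j ht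
    have d3 : HasDerivAt (fun s => qf (fun i j => ∫ r in (1 / 2 : ℝ)..s, rr κ l g a b v r i j) I x)
        (qf (rr κ l g a b v t) I x) t :=
      hasDerivAt_qf I x fun i j => h3 i j ht
    have d4 := d2.sub d3
    have hR : ∀ s ∈ Ioo (0:ℝ) 1, qf (fun i j => ∫ r in s..t, rr κ l g a b v r i j) I x
        = qf (fun i j => ∫ r in (1 / 2 : ℝ)..t, rr κ l g a b v r i j) I x
        - qf (fun i j => ∫ r in (1 / 2 : ℝ)..s, rr κ l g a b v r i j) I x := by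
      intro s hs
      rw [← qf_sub]
      congr 1
      ext i j
      exact ((LAC.prim (h.rint i j)).eq s hs t ht).symm
    have key : ∀ {f : ℝ → ℝ} {f' : ℝ}, HasDerivAt f f' t →
        Tendsto (fun s => (f s - f t) / (t - s)) (𝓝[<] t) (𝓝 (-f')) := by
      intro f f' hf
      have h5 := ((hasDerivAt_iff_tendsto_slope_left_right.1 hf).1).neg
      refine h5.congr' ?_
      filter_upwards [self_mem_nhdsWithin] with s hs
      have hs' : s < t := hs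
      have e1 : s - t ≠ 0 := by linarith
      have e2 : t - s ≠ 0 := by linarith
      rw [slope_def_field]
      field_simp
      ring
    refine ⟨fun s => qf (fun i j => G i j s) I x - qf (fun i j => G i j t) I x,
      fun s => (qf (MM κ l G p s) I x - qf (fun i j => ∫ r in (1 / 2 : ℝ)..s,
          rr κ l g a b v r i j) I x) - (qf (MM κ l G p t) I x
          - qf (fun i j => ∫ r in (1 / 2 : ℝ)..t, rr κ l g a b v r i j) I x),
      -qf (nn g a t) I x, -(qf (MM' κ l g a v G p t) I x - qf (rr κ l g a b v t) I x),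
      ?_, key d1, key d4, ?_⟩
    · have hev : ∀ᶠ s in 𝓝[<] t ⊓ 𝓟 {t | GoodT κ l g a b v Λ G p k t},
          GoodT κ l g a b v Λ G p k s := (inf_le_right : _ ≤ 𝓟 _) (mem_principal_self _)
      have hlt : ∀ᶠ s in 𝓝[<] t ⊓ 𝓟 {t | GoodT κ l g a b v Λ G p k t}, s < t :=
        (inf_le_left : _ ≤ 𝓝[<] t) self_mem_nhdsWithin
      filter_upwards [hev, hlt] with s hs hst
      have h6 := hx4 s hs hst
      rw [hR s hs.mem] at h6
      linarith
    · have hk := key_identity κ t⁻¹ (Bf κ l t) l (yy κ l g b v t) (v t)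
        (lc (fun i => g i t) I x) (lc (fun i => a i t) I x) (lc (fun i => b i t) I x)
        hg.pt.vn hx2 hx3
      rw [qf_nn, qf_MM' hg.hG hg.hp, qf_rr]
      have hμt := hμ t ht
      have hM := Mq_ge hμt.1 hμt.2 (inner_sq_le hg.pt (lc (fun i => g i t) I x))
        (by positivity)
      have hM2 : μ t ≤ Mq t⁻¹ (Bf κ l t) l (‖lc (fun i => g i t) I x‖ ^ 2)
          ⟪lc (fun i => g i t) I x, v t⟫_ℝ := by
        rw [hx2] at hM ⊢; linarith
      have hM3 := mul_le_mul_of_nonneg_left hM2 hy0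
      linarith

/-- the local control of the increments -/
theorem Cur.locCtl (h : Cur κ l g a b v Λ G p k) :
    LocCtl (yy κ l g b v) {t | GoodT κ l g a b v Λ G p k t} := by
  intro t₀ ht₀
  obtain ⟨I, hI⟩ := exists_frame (h.rank t₀ ht₀)
  have hGc : ∀ t ∈ Ioo (0:ℝ) 1, ∀ i j, ContinuousAt (fun s => G i j s) t := fun t ht i j =>
    ((h.hG i j).cont t ht).continuousAt (Ioo_mem_nhds ht.1 ht.2)
  have h1 : ∀ᶠ s in 𝓝 t₀, (Matrix.of fun i j : I => G i j s : Matrix I I ℝ).det ≠ 0 := by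
    have := continuousAt_det (G := fun s i j => G i j s) (I := I) (hGc t₀ ht₀)
    exact this.eventually_ne hI.2
  have h2 : ∀ᶠ s in 𝓝 t₀, cb (fun i j => G i j s) I < cb (fun i j => G i j t₀) I + 1 := by
    have := continuousAt_cb (G := fun s i j => G i j s) (I := I) (hGc t₀ ht₀) hI.2
    exact this.eventually_lt continuousAt_const (by simp)
  obtain ⟨ε, hε, hball⟩ := Metric.eventually_nhds_iff.1 (h1.and h2)
  set X : ℝ := cb (fun i j => G i j t₀) I + 1 with hX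
  -- the interval
  obtain ⟨α, hα1, hα2⟩ := exists_between (max_lt ht₀.1 (by linarith : t₀ - ε < t₀))
  obtain ⟨β, hβ1, hβ2⟩ := exists_between (lt_min ht₀.2 (by linarith : t₀ < t₀ + ε))
  have hα0 : 0 < α := (le_max_left _ _).trans_lt hα1
  have hβ0 : β < 1 := hβ2.trans_le (min_le_left _ _)
  have hαε : t₀ - ε < α := (le_max_right _ _).trans_lt hα1
  have hβε : β < t₀ + ε := hβ2.trans_le (min_le_right _ _)
  have hαm : α ∈ Ioo (0:ℝ) 1 := ⟨hα0, hα2.trans ht₀.2⟩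
  have hβm : β ∈ Ioo (0:ℝ) 1 := ⟨ht₀.1.trans hβ1, hβ0⟩
  have hαβ : α ≤ β := (hα2.trans hβ1).le
  have hN := h.hG
  have hM := fun i j => lac_MM h.hl h.hκ h.hG h.hp i j
  refine ⟨α, β, hα2, hβ1, fun r => X ^ 2 * (∑ i ∈ I, ∑ j ∈ I, |nn g a r i j|)
    + X ^ 2 * (∑ i ∈ I, ∑ j ∈ I, |MM' κ l g a v G p r i j|)
    + X ^ 2 * (∑ i ∈ I, ∑ j ∈ I, |rr κ l g a b v r i j|), ?_, ?_, ?_⟩
  · have hs : ∀ F : ℝ → ℕ → ℕ → ℝ, (∀ i j, IntervalIntegrable (fun r => F r i j) volume α β) →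
        IntervalIntegrable (fun r => X ^ 2 * (∑ i ∈ I, ∑ j ∈ I, |F r i j|)) volume α β := by
      intro F hF
      have e : (fun r => X ^ 2 * (∑ i ∈ I, ∑ j ∈ I, |F r i j|))
          = fun r => X ^ 2 * (∑ i ∈ I, ∑ j ∈ I, fun r => |F r i j|) r := by
        ext r; simp [Finset.sum_apply]
      rw [e]
      refine IntervalIntegrable.const_mul (IntervalIntegrable.sum _ fun i _ =>
        IntervalIntegrable.sum _ fun j _ => (hF i j).abs) _
    exact ((hs _ fun i j => (hN i j).int α hαm β hβm).add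
      (hs _ fun i j => (hM i j).int α hαm β hβm)).add (hs _ fun i j => h.rint i j α hαm β hβm)
  · intro r; positivity
  · intro s hs t ht h3 h4 h5
    have hs' : GoodT κ l g a b v Λ G p k s := hs
    have ht' : GoodT κ l g a b v Λ G p k t := ht
    have hys : 0 ≤ yy κ l g b v s := hs'.pt.y_nonneg _ _
    have hyt : 0 ≤ yy κ l g b v t := ht'.pt.y_nonneg _ _
    have hsb : ∀ F : ℝ → ℕ → ℕ → ℝ, (∀ i j, IntervalIntegrable (fun r => F r i j) volume s t) →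
        IntervalIntegrable (fun r => X ^ 2 * (∑ i ∈ I, ∑ j ∈ I, |F r i j|)) volume s t := by
      intro F hF
      have e : (fun r => X ^ 2 * (∑ i ∈ I, ∑ j ∈ I, |F r i j|))
          = fun r => X ^ 2 * (∑ i ∈ I, ∑ j ∈ I, fun r => |F r i j|) r := by
        ext r; simp [Finset.sum_apply]
      rw [e]
      refine IntervalIntegrable.const_mul (IntervalIntegrable.sum _ fun i _ =>
        IntervalIntegrable.sum _ fun j _ => (hF i j).abs) _
    have i1 : ∀ i j, IntervalIntegrable (fun r => nn g a r i j) volume s t := fun i j =>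
      (hN i j).int s hs'.mem t ht'.mem
    have i2 : ∀ i j, IntervalIntegrable (fun r => MM' κ l g a v G p r i j) volume s t := fun i j =>
      (hM i j).int s hs'.mem t ht'.mem
    have i3 : ∀ i j, IntervalIntegrable (fun r => rr κ l g a b v r i j) volume s t := fun i j =>
      h.rint i j s hs'.mem t ht'.mem
    rw [intervalIntegral.integral_add ((hsb _ i1).add (hsb _ i2)) (hsb _ i3),
      intervalIntegral.integral_add (hsb _ i1) (hsb _ i2)]
    set A1 := ∫ r in s..t, X ^ 2 * (∑ i ∈ I, ∑ j ∈ I, |nn g a r i j|) with hA1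
    set A2 := ∫ r in s..t, X ^ 2 * (∑ i ∈ I, ∑ j ∈ I, |MM' κ l g a v G p r i j|) with hA2
    set A3 := ∫ r in s..t, X ^ 2 * (∑ i ∈ I, ∑ j ∈ I, |rr κ l g a b v r i j|) with hA3
    have p1 : 0 ≤ A1 := intervalIntegral.integral_nonneg h4.le fun r _ => by positivity
    have p2 : 0 ≤ A2 := intervalIntegral.integral_nonneg h4.le fun r _ => by positivity
    have p3 : 0 ≤ A3 := intervalIntegral.integral_nonneg h4.le fun r _ => by positivity
    rcases hyt.eq_or_lt with hy | hy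
    · rw [← hy]
      have : 0 ≤ (1 + yy κ l g b v s) * (A1 + A2 + A3) := by positivity
      linarith
    · have hd : dist t t₀ < ε := by
        rw [Real.dist_eq, abs_lt]
        constructor <;> linarith
      obtain ⟨b1, b2⟩ := hball hd
      have hIt : Fr (fun i j => G i j t) k I := ⟨hI.1, b1⟩
      obtain ⟨x, hx1, hx2, hx3, hx4⟩ := h.incr ht' hIt hy
      have hxX : ∀ i ∈ I, |x i| ≤ X := fun i hi => (hx1 i hi).trans b2.le
      have h6 := hx4 s hs' h4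
      have hb : ∀ F : ℝ → ℕ → ℕ → ℝ, (∀ i j, IntervalIntegrable (fun r => F r i j) volume s t) →
          |qf (fun i j => ∫ r in s..t, F r i j) I x|
            ≤ ∫ r in s..t, X ^ 2 * (∑ i ∈ I, ∑ j ∈ I, |F r i j|) := by
        intro F hF
        rw [← integral_qf I x hF]
        refine (intervalIntegral.abs_integral_le_integral_abs h4.le).trans ?_
        exact intervalIntegral.integral_mono_on h4.le (intervalIntegrable_qf I x hF).abs (hsb F hF)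
          fun r _ => abs_qf_le _ _ _ hxX
      have c1 : |qf (fun i j => G i j t) I x - qf (fun i j => G i j s) I x| ≤ A1 := by
        rw [← qf_sub]
        have e : (fun i j => G i j t - G i j s) = fun i j => ∫ r in s..t, nn g a r i j := by
          ext i j; exact (hN i j).eq s hs'.mem t ht'.mem
        rw [e]; exact hb _ i1
      have c2 : |qf (MM κ l G p t) I x - qf (MM κ l G p s) I x| ≤ A2 := by
        have e : (fun i j => MM κ l G p t i j - MM κ l G p s i j)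
            = fun i j => ∫ r in s..t, MM' κ l g a v G p r i j := by
          ext i j; exact (hM i j).eq s hs'.mem t ht'.mem
        have e2 := qf_sub (MM κ l G p t) (MM κ l G p s) I x
        rw [← e2, e]; exact hb _ i2
      have c3 : |qf (fun i j => ∫ r in s..t, rr κ l g a b v r i j) I x| ≤ A3 := hb _ i3
      have c1' := (abs_le.1 c1).1
      have c2' := (abs_le.1 c2).1
      have c3' := (abs_le.1 c3).2
      have h7 : yy κ l g b v s * (qf (fun i j => G i j s) I x - qf (fun i j => G i j t) I x)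
          ≤ yy κ l g b v s * A1 := mul_le_mul_of_nonneg_left (by linarith) hys
      have h8 : (1 + yy κ l g b v s) * (A1 + A2 + A3) = A1 + A2 + A3 + yy κ l g b v s * A1
          + yy κ l g b v s * A2 + yy κ l g b v s * A3 := by ring
      have h9 : 0 ≤ yy κ l g b v s * A2 := by positivity
      have h10 : 0 ≤ yy κ l g b v s * A3 := by positivity
      linarith

theorem Cur.zero (h : Cur κ l g a b v Λ G p k) :
    ∀ t, GoodT κ l g a b v Λ G p k t → yy κ l g b v t = 0 := by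
  obtain ⟨μ, θ, hw, hμ⟩ := exists_wt h.hl h.hκ
  exact scalar_zero (Z := {t | GoodT κ l g a b v Λ G p k t}) h.ae (fun t ht => GoodT.mem ht) hw
    (fun t ht => (GoodT.pt ht).y_nonneg _ _) h.locCtl (h.derCtl hμ)

end cur

end Vale.Agent.P233.H768
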