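import Vale.Agent.P233.MathlibUsed2

/-!
# P233, block E45 (part 1): a scalar Riccati inequality with downward jumps

`y ≥ 0` on a conull set `Z` of `(0,1)`, with locally integrable upper control of the increments and
`y' ≤ -y² - 2 μ y`, `μ ≥ 1/t - C t`. Then `y = 0` on `Z`.
-/

set_option linter.all false

open MeasureTheory Set Filter Topology

namespace Vale.Agent.P233.H768

/-- local control of the increments -/
def LocCtl (y : ℝ → ℝ) (Z : Set ℝ) : Prop :=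
  ∀ t₀ ∈ Ioo (0:ℝ) 1, ∃ α β, α < t₀ ∧ t₀ < β ∧ ∃ b : ℝ → ℝ, IntervalIntegrable b volume α β ∧
    (∀ r, 0 ≤ b r) ∧ ∀ s ∈ Z, ∀ t ∈ Z, α < s → s < t → t < β →
      y t - y s ≤ (1 + y s) * ∫ r in s..t, b r

/-- the differential inequality at the time `t` -/
def DerCtl (y μ : ℝ → ℝ) (Z : Set ℝ) (t : ℝ) : Prop :=
  ∃ (P Q : ℝ → ℝ) (p q : ℝ), (∀ᶠ s in 𝓝[<] t ⊓ 𝓟 Z, y t - y s ≤ y s * P s + Q s) ∧
    Tendsto (fun s => P s / (t - s)) (𝓝[<] t) (𝓝 p) ∧
    Tendsto (fun s => Q s / (t - s)) (𝓝[<] t) (𝓝 q) ∧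
    y t * p + q ≤ -(y t) ^ 2 - 2 * μ t * y t

section

variable {Z : Set ℝ}

theorem exists_Z (hZ : ∀ᵐ t : ℝ, t ∈ Ioo (0:ℝ) 1 → t ∈ Z) {a b : ℝ} (ha : 0 ≤ a) (hb : b ≤ 1)
    (hab : a < b) : ∃ z ∈ Z, a < z ∧ z < b := by
  by_contra hcon
  push Not at hcon
  have h1 : ∀ᵐ t : ℝ, t ∉ Ioo a b := by
    filter_upwards [hZ] with t ht hab'
    have := ht ⟨ha.trans_lt hab'.1, hab'.2.trans_le hb⟩
    exact absurd hab'.2 (not_lt.2 (hcon t this hab'.1))
  have h2 : volume (Ioo a b) = 0 := by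
    rw [measure_eq_zero_iff_ae_notMem]; exact h1
  rw [Real.volume_Ioo] at h2
  simp at h2
  linarith

theorem neBot_Z (hZ : ∀ᵐ t : ℝ, t ∈ Ioo (0:ℝ) 1 → t ∈ Z) {t : ℝ} (ht : t ∈ Ioo (0:ℝ) 1) :
    (𝓝[<] t ⊓ 𝓟 Z).NeBot := by
  rw [inf_principal_neBot_iff]
  intro U hU
  obtain ⟨l, hl, hlU⟩ := (mem_nhdsLT_iff_exists_Ioo_subset).1 hU
  obtain ⟨z, hz, hz1, hz2⟩ := exists_Z hZ (a := max l 0) (b := t) (le_max_right _ _) ht.2.le
    (max_lt hl ht.1)
  exact ⟨z, hlU ⟨(le_max_left _ _).trans_lt hz1, hz2⟩, hz⟩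

/-- chaining a local monotonicity -/
theorem antitoneOn_of_local (hZ : ∀ᵐ t : ℝ, t ∈ Ioo (0:ℝ) 1 → t ∈ Z) (hZ' : Z ⊆ Ioo (0:ℝ) 1)
    {φ : ℝ → ℝ} (h : ∀ t₀ ∈ Ioo (0:ℝ) 1, ∃ α β, α < t₀ ∧ t₀ < β ∧ AntitoneOn φ (Z ∩ Ioo α β)) :
    AntitoneOn φ Z := by
  intro s hs t ht hst
  have hsub : Icc s t ⊆ Ioo (0:ℝ) 1 := fun x hx =>
    ⟨(hZ' hs).1.trans_le hx.1, hx.2.trans_lt (hZ' ht).2⟩
  choose! α β hα hβ hφ using h
  obtain ⟨δ, hδ, hcov⟩ := lebesgue_number_lemma_of_metric (s := Icc s t) (ι := Ioo (0:ℝ) 1)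
    (c := fun i => Ioo (α i) (β i)) isCompact_Icc (fun i => isOpen_Ioo) (fun x hx =>
      mem_iUnion.2 ⟨⟨x, hsub hx⟩, hα x (hsub hx), hβ x (hsub hx)⟩)
  have key : ∀ n : ℕ, ∀ s' ∈ Z, ∀ t' ∈ Z, s ≤ s' → s' ≤ t' → t' ≤ t → t' - s' < n * (δ / 2) →
      φ t' ≤ φ s' := by
    intro n
    induction n with
    | zero => intro s' _ t' _ _ h1 _ h2; simp at h2; linarith
    | succ n ih =>
      intro s' hs' t' ht' h1 h2 h3 h4
      rcases lt_or_ge (t' - s') δ with h5 | h5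
      · obtain ⟨i, hi⟩ := hcov s' ⟨h1, h2.trans h3⟩
        refine hφ i.1 i.2 ⟨hs', hi (Metric.mem_ball_self hδ)⟩ ⟨ht', hi ?_⟩ h2
        rw [Metric.mem_ball, Real.dist_eq, abs_of_nonneg (by linarith)]; exact h5
      · obtain ⟨m, hm, hm1, hm2⟩ := exists_Z hZ (a := t' - δ) (b := t' - δ / 2)
          (by have := (hZ' hs').1; linarith) (by have := (hZ' ht').2; linarith) (by linarith)
        have e1 : φ t' ≤ φ m := by
          obtain ⟨i, hi⟩ := hcov m ⟨by linarith, by linarith⟩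
          refine hφ i.1 i.2 ⟨hm, hi (Metric.mem_ball_self hδ)⟩ ⟨ht', hi ?_⟩ (by linarith)
          rw [Metric.mem_ball, Real.dist_eq, abs_of_nonneg (by linarith)]; linarith
        have e2 : φ m ≤ φ s' := ih s' hs' m hm h1 (by linarith) (by linarith)
          (by push_cast at h4; linarith)
        exact e1.trans e2
  obtain ⟨n, hn⟩ := exists_nat_gt ((t - s) / (δ / 2))
  exact key n s hs t ht le_rfl hst le_rfl (by rwa [div_lt_iff₀ (by positivity)] at hn)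

/-- the weight -/
structure Wt (θ μ : ℝ → ℝ) : Prop where
  cd : ContDiff ℝ 1 θ
  pos : ∀ t ∈ Ioo (0:ℝ) 1, 0 < θ t
  der : ∀ t ∈ Ioo (0:ℝ) 1, deriv θ t ≤ 2 * μ t * θ t
  le : ∃ C : ℝ, 0 < C ∧ ∀ t ∈ Ioo (0:ℝ) 1, θ t ≤ C * t ^ 2

theorem Wt.bd {θ μ : ℝ → ℝ} (h : Wt θ μ) : ∃ S : ℝ, 0 < S ∧ ∀ t ∈ Icc (0:ℝ) 1, θ t ≤ S := by
  obtain ⟨S, hS⟩ := (isCompact_Icc (a := (0:ℝ)) (b := 1)).exists_bound_of_continuousOn
    h.cd.continuous.continuousOn
  refine ⟨max S 1, by positivity, fun t ht => ?_⟩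
  exact ((le_abs_self _).trans (hS t ht)).trans (le_max_left _ _)

/-- the differential inequality for `φ = y θ` -/
theorem der_phi (hZ : ∀ᵐ t : ℝ, t ∈ Ioo (0:ℝ) 1 → t ∈ Z) {y μ θ : ℝ → ℝ} {t : ℝ}
    (hw : Wt θ μ) (ht : t ∈ Ioo (0:ℝ) 1) (hy : 0 ≤ y t)
    (hD : DerCtl y μ Z t) (hc : Tendsto y (𝓝[<] t ⊓ 𝓟 Z) (𝓝 (y t))) :
    ∃ (e : ℝ → ℝ) (E : ℝ), E ≤ -((y t * θ t) ^ 2 / θ t) ∧
      Tendsto e (𝓝[<] t ⊓ 𝓟 Z) (𝓝 E) ∧
      ∀ᶠ s in 𝓝[<] t ⊓ 𝓟 Z, y t * θ t - y s * θ s ≤ (t - s) * e s := by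
  obtain ⟨P, Q, p, q, h1, h2, h3, h4⟩ := hD
  have hle : 𝓝[<] t ⊓ 𝓟 Z ≤ 𝓝[<] t := inf_le_left
  have hdθ : HasDerivAt θ (deriv θ t) t :=
    (hw.cd.differentiable (by norm_num)).differentiableAt.hasDerivAt
  have hth : Tendsto (fun s => (θ t - θ s) / (t - s)) (𝓝[<] t) (𝓝 (deriv θ t)) := by
    have := (hasDerivAt_iff_tendsto_slope_left_right.1 hdθ).1
    refine this.congr' ?_
    filter_upwards [self_mem_nhdsWithin] with s hs
    rw [slope_def_field, ← neg_sub (θ t), ← neg_sub t s, neg_div_neg_eq]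
  refine ⟨fun s => (y s * (P s / (t - s)) + Q s / (t - s)) * θ t
      + y s * ((θ t - θ s) / (t - s)),
    (y t * p + q) * θ t + y t * deriv θ t, ?_, ?_, ?_⟩
  · have hp := hw.pos t ht
    have e1 : (y t * θ t) ^ 2 / θ t = y t ^ 2 * θ t := by field_simp
    rw [e1]
    have e2 : (y t * p + q) * θ t ≤ (-(y t) ^ 2 - 2 * μ t * y t) * θ t :=
      mul_le_mul_of_nonneg_right h4 hp.le
    have e3 : y t * deriv θ t ≤ y t * (2 * μ t * θ t) :=
      mul_le_mul_of_nonneg_left (hw.der t ht) hy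
    nlinarith
  · exact (((hc.mul (h2.mono_left hle)).add (h3.mono_left hle)).mul_const _).add
      (hc.mul (hth.mono_left hle))
  · have hlt : ∀ᶠ s in 𝓝[<] t ⊓ 𝓟 Z, s < t := hle self_mem_nhdsWithin
    filter_upwards [h1, hlt] with s hs hst
    have hne : t - s ≠ 0 := by linarith
    have e1 : (t - s) * ((y s * (P s / (t - s)) + Q s / (t - s)) * θ t
      + y s * ((θ t - θ s) / (t - s)))
      = (y s * P s + Q s) * θ t + y s * (θ t - θ s) := by
      field_simp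
    rw [e1]
    have := mul_le_mul_of_nonneg_right hs (hw.pos t ht).le
    nlinarith

theorem Wt.lip {θ μ : ℝ → ℝ} (h : Wt θ μ) : ∃ K : ℝ, 0 ≤ K ∧ ∀ s ∈ Icc (0:ℝ) 1,
    ∀ t ∈ Icc (0:ℝ) 1, |θ t - θ s| ≤ K * |t - s| := by
  obtain ⟨K, hK⟩ := LocallyLipschitzOn.exists_lipschitzOnWith_of_compact (s := Icc (0:ℝ) 1)
    isCompact_Icc (h.cd.locallyLipschitz.locallyLipschitzOn)
  refine ⟨K, K.2, fun s hs t ht => ?_⟩
  have := hK.dist_le_mul t ht s hs
  simpa [Real.dist_eq] using this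

/-- the value of the integrand in a pointwise differentiation -/
theorem tendsto_of_ext {φ Φ : ℝ → ℝ} {t D : ℝ} {S : Set ℝ} (hD : HasDerivAt Φ D t)
    (hS : ∀ᶠ s in 𝓝[<] t, s ∈ S → Φ s = φ s) (ht : Φ t = φ t) :
    Tendsto φ (𝓝[<] t ⊓ 𝓟 S) (𝓝 (φ t)) ∧
    Tendsto (fun s => (φ t - φ s) / (t - s)) (𝓝[<] t ⊓ 𝓟 S) (𝓝 D) := by
  have hev : ∀ᶠ s in 𝓝[<] t ⊓ 𝓟 S, Φ s = φ s := by
    rw [eventually_inf_principal]; exact hS
  constructor
  · rw [← ht]
    have h1 : Tendsto Φ (𝓝[<] t ⊓ 𝓟 S) (𝓝 (Φ t)) :=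
      hD.continuousAt.tendsto.mono_left (inf_le_left.trans nhdsWithin_le_nhds)
    exact h1.congr' hev
  · have h1 := (hasDerivAt_iff_tendsto_slope_left_right.1 hD).1
    have h2 := h1.mono_left (inf_le_left : 𝓝[<] t ⊓ 𝓟 S ≤ 𝓝[<] t)
    refine h2.congr' ?_
    filter_upwards [hev] with s hs
    rw [slope_def_field, ← neg_sub (Φ t), ← neg_sub t s, neg_div_neg_eq, hs, ht]

/-- the increments of an antitone function -/
theorem mono_increment {F : ℝ → ℝ} (hF : Antitone F) {s t : ℝ} (hst : s ≤ t) :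
    F t - F s ≤ ∫ r in s..t, deriv F r := by
  have h1 := (hF.neg.monotoneOn (uIcc s t)).intervalIntegral_deriv_mem_uIcc
  have h2 : 0 ≤ -F t - -F s := by
    have := hF hst
    linarith
  rw [uIcc_of_le h2] at h1
  have e : deriv (fun x => -F x) = fun r => -deriv F r := by ext r; exact deriv.fun_neg
  rw [e, intervalIntegral.integral_neg] at h1
  have := h1.2
  linarith

theorem local_antitone (hZ : ∀ᵐ t : ℝ, t ∈ Ioo (0:ℝ) 1 → t ∈ Z) (hZ' : Z ⊆ Ioo (0:ℝ) 1)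
    {y μ θ : ℝ → ℝ} (hw : Wt θ μ) (hy : ∀ t ∈ Z, 0 ≤ y t)
    (hder : ∀ᵐ t : ℝ, t ∈ Ioo (0:ℝ) 1 → DerCtl y μ Z t) {α β : ℝ} {b : ℝ → ℝ}
    (hb : IntervalIntegrable b volume α β) (hb0 : ∀ r, 0 ≤ b r)
    (hctl : ∀ s ∈ Z, ∀ t ∈ Z, α < s → s < t → t < β → y t - y s ≤ (1 + y s) * ∫ r in s..t, b r)
    {s₀ : ℝ} (hs₀ : s₀ ∈ Z) (hα : α < s₀) (hβ : s₀ < β) (hβ1 : β ≤ 1) :
    AntitoneOn (fun t => y t * θ t) (Z ∩ Ioo s₀ β) := by
  obtain ⟨K, hK0, hK⟩ := hw.lip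
  obtain ⟨S, hS0, hS⟩ := hw.bd
  have hbi : ∀ s t, α ≤ s → s ≤ t → t ≤ β → IntervalIntegrable b volume s t := by
    intro s t h1 h2 h3
    refine hb.mono_set ?_
    rw [uIcc_of_le h2, uIcc_of_le (h1.trans (h2.trans h3))]
    exact Icc_subset_Icc h1 h3
  set U : ℝ := y s₀ + (1 + y s₀) * ∫ r in s₀..β, b r with hU
  have hys₀ := hy s₀ hs₀
  have hUb : ∀ t ∈ Z ∩ Ioo s₀ β, y t ≤ U := by
    intro t ht
    have h1 := hctl s₀ hs₀ t ht.1 hα ht.2.1 ht.2.2
    have h2 : ∫ r in s₀..t, b r ≤ ∫ r in s₀..β, b r := by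
      have h3 := intervalIntegral.integral_add_adjacent_intervals
        (hbi s₀ t hα.le ht.2.1.le ht.2.2.le) (hbi t β (hα.trans ht.2.1).le ht.2.2.le le_rfl)
      have h4 : 0 ≤ ∫ r in t..β, b r := intervalIntegral.integral_nonneg ht.2.2.le (fun r _ => hb0 r)
      linarith
    nlinarith
  have hU0 : 0 ≤ U := by
    have : 0 ≤ ∫ r in s₀..β, b r := intervalIntegral.integral_nonneg hβ.le (fun r _ => hb0 r)
    positivity
  -- the majorant
  set b2 : ℝ → ℝ := fun r => (1 + U) * S * b r + U * K with hb2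
  have hb2i : ∀ s t, α ≤ s → s ≤ t → t ≤ β → IntervalIntegrable b2 volume s t := fun s t h1 h2 h3 =>
    ((hbi s t h1 h2 h3).const_mul _).add intervalIntegrable_const
  have hb20 : ∀ r, 0 ≤ b2 r := fun r => by have := hb0 r; positivity
  set φ : ℝ → ℝ := fun t => y t * θ t with hφ
  have hinc : ∀ s ∈ Z ∩ Ioo s₀ β, ∀ t ∈ Z ∩ Ioo s₀ β, s < t → φ t - φ s ≤ ∫ r in s..t, b2 r := by
    intro s hs t ht hst
    have h1 := hctl s hs.1 t ht.1 (hα.trans hs.2.1) hst ht.2.2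
    have hs1 := hZ' hs.1
    have ht1 := hZ' ht.1
    have h2 := hK s ⟨hs1.1.le, hs1.2.le⟩ t ⟨ht1.1.le, ht1.2.le⟩
    have hbI : 0 ≤ ∫ r in s..t, b r := intervalIntegral.integral_nonneg hst.le (fun r _ => hb0 r)
    have h3 : ∫ r in s..t, b2 r = (1 + U) * S * (∫ r in s..t, b r) + U * K * (t - s) := by
      rw [hb2, intervalIntegral.integral_add ((hbi s t (hα.trans hs.2.1).le hst.le
        ht.2.2.le).const_mul _) intervalIntegrable_const, intervalIntegral.integral_const_mul,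
        intervalIntegral.integral_const]
      simp; ring
    rw [h3]
    have hyU := hUb s hs
    have hys := hy s hs.1
    have hth1 : θ t ≤ S := hS t ⟨ht1.1.le, ht1.2.le⟩
    have hth0 := (hw.pos t ht1).le
    rw [abs_of_pos (by linarith : 0 < t - s)] at h2
    have e1 : (y t - y s) * θ t ≤ (1 + U) * S * ∫ r in s..t, b r := by
      have e2 : (y t - y s) * θ t ≤ ((1 + y s) * ∫ r in s..t, b r) * θ t :=
        mul_le_mul_of_nonneg_right h1 hth0
      have e3 : ((1 + y s) * ∫ r in s..t, b r) * θ t ≤ ((1 + y s) * ∫ r in s..t, b r) * S :=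
        mul_le_mul_of_nonneg_left hth1 (by positivity)
      have e4 : (1 + y s) * ∫ r in s..t, b r ≤ (1 + U) * ∫ r in s..t, b r :=
        mul_le_mul_of_nonneg_right (by linarith) hbI
      have e4' := mul_le_mul_of_nonneg_right e4 hS0.le
      linarith
    have e5 : y s * (θ t - θ s) ≤ U * K * (t - s) := by
      have e6 : θ t - θ s ≤ K * (t - s) := (le_abs_self _).trans h2
      have e7 : y s * (θ t - θ s) ≤ y s * (K * (t - s)) := mul_le_mul_of_nonneg_left e6 hys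
      have e8 : y s * (K * (t - s)) ≤ U * (K * (t - s)) :=
        mul_le_mul_of_nonneg_right hyU (by have : 0 ≤ t - s := by linarith
                                           positivity)
      linarith
    have e9 : φ t - φ s = (y t - y s) * θ t + y s * (θ t - θ s) := by
      simp only [hφ]; ring
    rw [e9]; linarith
  set B : ℝ → ℝ := fun t => ∫ r in s₀..t, b2 r with hB
  have hBinc : ∀ s t, s₀ ≤ s → s ≤ t → t ≤ β → B t - B s = ∫ r in s..t, b2 r := by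
    intro s t h1 h2 h3
    have := intervalIntegral.integral_add_adjacent_intervals
      (hb2i s₀ s hα.le h1 (h2.trans h3)) (hb2i s t (hα.le.trans h1) h2 h3)
    simp only [hB]; linarith
  have hF : AntitoneOn (fun t => φ t - B t) (Z ∩ Ioo s₀ β) := by
    intro s hs t ht hst
    rcases hst.eq_or_lt with h | h
    · rw [h]
    · have h1 := hinc s hs t ht h
      have h2 := hBinc s t hs.2.1.le hst ht.2.2.le
      simp only; linarith
  have hφb : ∀ t ∈ Z ∩ Ioo s₀ β, 0 ≤ φ t ∧ φ t ≤ U * S := by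
    intro t ht
    have ht1 := hZ' ht.1
    have hth1 : θ t ≤ S := hS t ⟨ht1.1.le, ht1.2.le⟩
    have hth0 := (hw.pos t ht1).le
    have h1 := hUb t ht
    have h2 := hy t ht.1
    exact ⟨by positivity, mul_le_mul h1 hth1 hth0 hU0⟩
  have hBb : ∀ t ∈ Icc s₀ β, 0 ≤ B t ∧ B t ≤ B β := by
    intro t ht
    have h0 : B s₀ = 0 := by simp [hB]
    have h1 := hBinc s₀ t le_rfl ht.1 ht.2
    have h2 := hBinc t β ht.1 ht.2 le_rfl
    have h3 : 0 ≤ ∫ r in s₀..t, b2 r := intervalIntegral.integral_nonneg ht.1 (fun r _ => hb20 r)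
    have h4 : 0 ≤ ∫ r in t..β, b2 r := intervalIntegral.integral_nonneg ht.2 (fun r _ => hb20 r)
    constructor <;> linarith
  obtain ⟨Fb, hFb, hFe⟩ := hF.exists_antitone_extension
    (⟨-(B β), by
      rintro _ ⟨t, ht, rfl⟩
      have := hBb t ⟨ht.2.1.le, ht.2.2.le⟩
      have := hφb t ht
      simp only; linarith⟩)
    (⟨U * S, by
      rintro _ ⟨t, ht, rfl⟩
      have := hBb t ⟨ht.2.1.le, ht.2.2.le⟩
      have := hφb t ht
      simp only; linarith⟩)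
  have hD : ∀ᵐ t : ℝ, t ∈ Ioo s₀ β → deriv Fb t + b2 t ≤ 0 := by
    have hdF : ∀ᵐ t : ℝ, DifferentiableAt ℝ Fb t := by
      have := (hFb.neg).ae_differentiableAt
      filter_upwards [this] with t ht
      simpa using ht.neg
    filter_upwards [hdF, (hb2i s₀ β hα.le hβ.le le_rfl).ae_hasDerivAt_integral, hder, hZ]
      with t h1 h2 h3 h4 ht
    have ht01 : t ∈ Ioo (0:ℝ) 1 := ⟨(hZ' hs₀).1.trans ht.1, ht.2.trans_le hβ1⟩
    have htZ := h4 ht01
    have h2' : HasDerivAt B (b2 t) t := by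
      have := h2 (by rw [uIcc_of_le hβ.le]; exact ⟨ht.1.le, ht.2.le⟩) s₀ (by simp)
      exact this
    have h5 : HasDerivAt (fun s => Fb s + B s) (deriv Fb t + b2 t) t := h1.hasDerivAt.add h2'
    have h6 : ∀ᶠ s in 𝓝[<] t, s ∈ Z → (fun s => Fb s + B s) s = φ s := by
      have : Ioo s₀ β ∈ 𝓝[<] t := nhdsWithin_le_nhds (Ioo_mem_nhds ht.1 ht.2)
      filter_upwards [this] with s hs hsZ
      have := hFe ⟨hsZ, hs⟩
      simp only at this ⊢
      linarith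
    have h7 : (fun s => Fb s + B s) t = φ t := by
      have := hFe ⟨htZ, ht⟩
      simp only at this ⊢
      linarith
    obtain ⟨h8, h9⟩ := tendsto_of_ext h5 h6 h7
    have hthp := hw.pos t ht01
    have hyc : Tendsto y (𝓝[<] t ⊓ 𝓟 Z) (𝓝 (y t)) := by
      have e1 : Tendsto (fun s => φ s / θ s) (𝓝[<] t ⊓ 𝓟 Z) (𝓝 (φ t / θ t)) :=
        h8.div (hw.cd.continuous.continuousAt.tendsto.mono_left
          (inf_le_left.trans nhdsWithin_le_nhds)) hthp.ne'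
      have e2 : φ t / θ t = y t := by simp only [hφ]; field_simp
      rw [e2] at e1
      refine e1.congr' ?_
      have e3 : ∀ᶠ s in 𝓝[<] t ⊓ 𝓟 Z, s ∈ Ioo (0:ℝ) 1 :=
        (inf_le_left.trans nhdsWithin_le_nhds) (Ioo_mem_nhds ht01.1 ht01.2)
      filter_upwards [e3] with s hs
      have := hw.pos s hs
      simp only [hφ]; field_simp
    obtain ⟨e, E, hE, he, hev⟩ := der_phi hZ hw ht01 (hy t htZ) (h3 ht01) hyc
    haveI := neBot_Z hZ ht01
    have hlt : ∀ᶠ s in 𝓝[<] t ⊓ 𝓟 Z, s < t :=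
      (inf_le_left : 𝓝[<] t ⊓ 𝓟 Z ≤ 𝓝[<] t) self_mem_nhdsWithin
    have : deriv Fb t + b2 t ≤ E := by
      refine le_of_tendsto_of_tendsto h9 he ?_
      filter_upwards [hev, hlt] with s hs hst
      rw [div_le_iff₀ (by linarith), mul_comm]
      exact hs
    have : (0:ℝ) ≤ (y t * θ t) ^ 2 / θ t := by positivity
    linarith
  intro s hs t ht hst
  have h1 := mono_increment hFb hst
  have h2 := hBinc s t hs.2.1.le hst ht.2.2.le
  have h3 : φ t - φ s = (Fb t - Fb s) + (B t - B s) := by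
    have e1 := hFe ht
    have e2 := hFe hs
    simp only at e1 e2
    linarith
  have hdi : IntervalIntegrable (deriv Fb) volume s t := by
    have := (hFb.neg.monotoneOn (uIcc s t)).intervalIntegrable_deriv
    have e : deriv (fun x => -Fb x) = fun r => -deriv Fb r := by ext r; exact deriv.fun_neg
    rw [e] at this
    have h := this.neg
    have e' : (-fun r => -deriv Fb r) = deriv Fb := by ext r; simp
    rwa [e'] at h
  have h4 : φ t - φ s ≤ ∫ r in s..t, (deriv Fb r + b2 r) := by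
    rw [intervalIntegral.integral_add hdi (hb2i s t (hα.le.trans hs.2.1.le) hst ht.2.2.le), h3, h2]
    linarith
  have h5 : ∫ r in s..t, (deriv Fb r + b2 r) ≤ ∫ r in s..t, (0:ℝ) := by
    refine intervalIntegral.integral_mono_ae_restrict hst
      (hdi.add (hb2i s t (hα.le.trans hs.2.1.le) hst ht.2.2.le)) intervalIntegrable_const ?_
    rw [EventuallyLE, ae_restrict_iff' measurableSet_Icc]
    filter_upwards [hD] with r hr hr2
    exact hr ⟨hs.2.1.trans_le hr2.1, hr2.2.trans_lt ht.2.2⟩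
  rw [intervalIntegral.integral_zero] at h5
  show φ t ≤ φ s
  linarith

/-- **The scalar comparison.** -/
theorem scalar_zero (hZ : ∀ᵐ t : ℝ, t ∈ Ioo (0:ℝ) 1 → t ∈ Z) (hZ' : Z ⊆ Ioo (0:ℝ) 1)
    {y μ θ : ℝ → ℝ} (hw : Wt θ μ) (hy : ∀ t ∈ Z, 0 ≤ y t)
    (hloc : LocCtl y Z) (hder : ∀ᵐ t : ℝ, t ∈ Ioo (0:ℝ) 1 → DerCtl y μ Z t) :
    ∀ t ∈ Z, y t = 0 := by
  set φ : ℝ → ℝ := fun t => y t * θ t with hφ
  obtain ⟨C, hC, hCle⟩ := hw.le
  have hanti : AntitoneOn φ Z := by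
    refine antitoneOn_of_local hZ hZ' fun t₀ ht₀ => ?_
    obtain ⟨α, β, hα, hβ, b, hb, hb0, hctl⟩ := hloc t₀ ht₀
    obtain ⟨s₀, hs₀, h1, h2⟩ := exists_Z hZ (a := max α 0) (b := t₀) (le_max_right _ _) ht₀.2.le
      (max_lt hα ht₀.1)
    have h3 : α < s₀ := (le_max_left _ _).trans_lt h1
    refine ⟨s₀, min β 1, h2, lt_min hβ ht₀.2, ?_⟩
    refine local_antitone hZ hZ' hw hy hder (α := α) (β := min β 1) (b := b) ?_ hb0 ?_ hs₀ h3
      (lt_min (h2.trans hβ) (h2.trans ht₀.2)) (min_le_right _ _)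
    · refine hb.mono_set ?_
      have h4 : α ≤ min β 1 := (h3.trans (lt_min (h2.trans hβ) (h2.trans ht₀.2))).le
      rw [uIcc_of_le h4, uIcc_of_le (h4.trans (min_le_left _ _))]
      exact Icc_subset_Icc le_rfl (min_le_left _ _)
    · intro s hs t ht h4 h5 h6
      exact hctl s hs t ht h4 h5 (h6.trans_le (min_le_left _ _))
  intro t₁ ht₁
  by_contra hne
  have ht₁' := hZ' ht₁
  have hpos : 0 < y t₁ := lt_of_le_of_ne (hy t₁ ht₁) (Ne.symm hne)
  have hφ1 : 0 < φ t₁ := mul_pos hpos (hw.pos t₁ ht₁')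
  -- bound for `1/s`
  have key : ∀ s₁ ∈ Z, s₁ < t₁ → C⁻¹ * (1 / s₁) ≤ 1 / φ t₁ + C⁻¹ * (1 / t₁) := by
    intro s₁ hs₁ hst
    have hs₁' := hZ' hs₁
    set ψ : ℝ → ℝ := fun t => 1 / φ t with hψ
    have hφp : ∀ t ∈ Z ∩ Icc s₁ t₁, φ t₁ ≤ φ t := fun t ht => hanti ht.1 ht₁ ht.2.2
    have hmono : AntitoneOn (fun t => -ψ t) (Z ∩ Icc s₁ t₁) := by
      intro s hs t ht h
      have h1 := hφp t ht
      have h2 := hφp s hs
      have h3 := hanti hs.1 ht.1 h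
      simp only [hψ, neg_le_neg_iff]
      exact one_div_le_one_div_of_le (hφ1.trans_le h1) h3
    obtain ⟨Ψ, hΨ, hΨe⟩ := hmono.exists_antitone_extension
      (⟨-(1 / φ t₁), by
        rintro _ ⟨t, ht, rfl⟩
        have h1 := hφp t ht
        simp only [hψ, neg_le_neg_iff]
        exact one_div_le_one_div_of_le hφ1 h1⟩)
      (⟨0, by
        rintro _ ⟨t, ht, rfl⟩
        have h1 := hφp t ht
        have : 0 < 1 / φ t := by have := hφ1.trans_le h1; positivity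
        simp only [hψ]; linarith⟩)
    have hD : ∀ᵐ t : ℝ, t ∈ Ioo s₁ t₁ → deriv Ψ t ≤ C⁻¹ * -(1 / t ^ 2) := by
      have hdF : ∀ᵐ t : ℝ, DifferentiableAt ℝ Ψ t := by
        have := (hΨ.neg).ae_differentiableAt
        filter_upwards [this] with t ht
        simpa using ht.neg
      filter_upwards [hdF, hder, hZ] with t h1 h3 h4 ht
      have ht01 : t ∈ Ioo (0:ℝ) 1 := ⟨hs₁'.1.trans ht.1, ht.2.trans ht₁'.2⟩
      have htZ := h4 ht01
      have htI : t ∈ Z ∩ Icc s₁ t₁ := ⟨htZ, ht.1.le, ht.2.le⟩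
      have h6 : ∀ᶠ s in 𝓝[<] t, s ∈ Z → Ψ s = (fun s => -ψ s) s := by
        have : Ioo s₁ t₁ ∈ 𝓝[<] t := nhdsWithin_le_nhds (Ioo_mem_nhds ht.1 ht.2)
        filter_upwards [this] with s hs hsZ
        exact (hΨe ⟨hsZ, hs.1.le, hs.2.le⟩).symm
      have h7 : Ψ t = (fun s => -ψ s) t := (hΨe htI).symm
      obtain ⟨h8, h9⟩ := tendsto_of_ext h1.hasDerivAt h6 h7
      have hφt : 0 < φ t := hφ1.trans_le (hφp t htI)
      have hthp := hw.pos t ht01
      have h8' : Tendsto φ (𝓝[<] t ⊓ 𝓟 Z) (𝓝 (φ t)) := by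
        have e0 : Tendsto ψ (𝓝[<] t ⊓ 𝓟 Z) (𝓝 (ψ t)) := by simpa using h8.neg
        have e1 := e0.inv₀ (by simp only [hψ]; positivity)
        simpa [hψ] using e1
      have hyc : Tendsto y (𝓝[<] t ⊓ 𝓟 Z) (𝓝 (y t)) := by
        have e1 : Tendsto (fun s => φ s / θ s) (𝓝[<] t ⊓ 𝓟 Z) (𝓝 (φ t / θ t)) :=
          h8'.div (hw.cd.continuous.continuousAt.tendsto.mono_left
            (inf_le_left.trans nhdsWithin_le_nhds)) hthp.ne'
        have e2 : φ t / θ t = y t := by simp only [hφ]; field_simp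
        rw [e2] at e1
        refine e1.congr' ?_
        have e3 : ∀ᶠ s in 𝓝[<] t ⊓ 𝓟 Z, s ∈ Ioo (0:ℝ) 1 :=
          (inf_le_left.trans nhdsWithin_le_nhds) (Ioo_mem_nhds ht01.1 ht01.2)
        filter_upwards [e3] with s hs
        have := hw.pos s hs
        simp only [hφ]; field_simp
      obtain ⟨e, E, hE, he, hev⟩ := der_phi hZ hw ht01 (hy t htZ) (h3 ht01) hyc
      haveI := neBot_Z hZ ht01
      have hlt : ∀ᶠ s in 𝓝[<] t ⊓ 𝓟 Z, s < t :=
        (inf_le_left : 𝓝[<] t ⊓ 𝓟 Z ≤ 𝓝[<] t) self_mem_nhdsWithin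
      have hgt : ∀ᶠ s in 𝓝[<] t ⊓ 𝓟 Z, s₁ < s :=
        (inf_le_left.trans nhdsWithin_le_nhds) (Ioi_mem_nhds ht.1)
      have hinZ : ∀ᶠ s in 𝓝[<] t ⊓ 𝓟 Z, s ∈ Z :=
        (inf_le_right : 𝓝[<] t ⊓ 𝓟 Z ≤ 𝓟 Z) (mem_principal_self Z)
      have hlim : Tendsto (fun s => e s / (φ s * φ t)) (𝓝[<] t ⊓ 𝓟 Z) (𝓝 (E / (φ t * φ t))) :=
        he.div (h8'.mul_const _) (by positivity)
      have h10 : deriv Ψ t ≤ E / (φ t * φ t) := by
        refine le_of_tendsto_of_tendsto h9 hlim ?_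
        filter_upwards [hev, hlt, hgt, hinZ] with s hs hst1 hst2 hsZ
        have hφs : 0 < φ s := hφ1.trans_le (hφp s ⟨hsZ, hst2.le, (hst1.trans ht.2).le⟩)
        have e4 : (fun s => -ψ s) t - (fun s => -ψ s) s = (φ t - φ s) / (φ s * φ t) := by
          simp only [hψ]; field_simp; ring
        rw [e4, div_div, div_le_div_iff₀ (by have : 0 < t - s := by linarith
                                             positivity) (by positivity)]
        have e5 : φ t - φ s ≤ (t - s) * e s := hs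
        have e6 : 0 < φ s * φ t := by positivity
        nlinarith
      have h11 : E / (φ t * φ t) ≤ -(1 / θ t) := by
        rw [div_le_iff₀ (by positivity)]
        have e7 : (y t * θ t) ^ 2 / θ t = 1 / θ t * (φ t * φ t) := by
          simp only [hφ]; field_simp
        rw [e7] at hE
        linarith
      have h12 : 1 / (C * t ^ 2) ≤ 1 / θ t :=
        one_div_le_one_div_of_le hthp (hCle t ht01)
      have h13 : 1 / (C * t ^ 2) = C⁻¹ * (1 / t ^ 2) := by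
        rw [one_div, mul_inv, one_div]
      rw [h13] at h12
      linarith
    have h1 := mono_increment hΨ hst.le
    have hdi : IntervalIntegrable (deriv Ψ) volume s₁ t₁ := by
      have := (hΨ.neg.monotoneOn (uIcc s₁ t₁)).intervalIntegrable_deriv
      have e : deriv (fun x => -Ψ x) = fun r => -deriv Ψ r := by ext r; exact deriv.fun_neg
      rw [e] at this
      have h := this.neg
      have e' : (-fun r => -deriv Ψ r) = deriv Ψ := by ext r; simp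
      rwa [e'] at h
    have hni : ∀ x ∈ uIcc s₁ t₁, x ≠ 0 := by
      intro x hx
      rw [uIcc_of_le hst.le] at hx
      have := hs₁'.1.trans_le hx.1
      exact this.ne'
    have hd1 : ∀ x ∈ uIcc s₁ t₁, HasDerivAt (fun x : ℝ => 1 / x) (-(1 / x ^ 2)) x := by
      intro x hx
      have := hasDerivAt_inv (hni x hx)
      simpa [one_div] using this
    have hci : IntervalIntegrable (fun x : ℝ => -(1 / x ^ 2)) volume s₁ t₁ := by
      apply ContinuousOn.intervalIntegrable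
      intro x hx
      have := hni x hx
      exact (ContinuousAt.neg (by fun_prop (disch := positivity))).continuousWithinAt
    have h2 := intervalIntegral.integral_eq_sub_of_hasDerivAt hd1 hci
    have h3 : ∫ r in s₁..t₁, deriv Ψ r ≤ ∫ r in s₁..t₁, C⁻¹ * -(1 / r ^ 2) := by
      refine intervalIntegral.integral_mono_ae_restrict hst.le hdi (hci.const_mul _) ?_
      rw [EventuallyLE, ← restrict_Ioo_eq_restrict_Icc, ae_restrict_iff' measurableSet_Ioo]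
      filter_upwards [hD] with r hr hr2 using hr hr2
    have h4 : -ψ t₁ = Ψ t₁ := hΨe ⟨ht₁, hst.le, le_rfl⟩
    have h5 : -ψ s₁ = Ψ s₁ := hΨe ⟨hs₁, le_rfl, hst.le⟩
    have h6 : 0 ≤ ψ s₁ := by
      have := hφ1.trans_le (hφp s₁ ⟨hs₁, le_rfl, hst.le⟩)
      simp only [hψ]; positivity
    have h7 : ψ t₁ = 1 / φ t₁ := rfl
    rw [intervalIntegral.integral_const_mul, h2] at h3
    linarith
  -- choose `s₁` small
  have hT : 0 < C * (1 / φ t₁) + 1 / t₁ := by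
    have := ht₁'.1
    positivity
  set T := C * (1 / φ t₁) + 1 / t₁ with hTdef
  obtain ⟨s₁, hs₁, h1, h2⟩ := exists_Z hZ (a := 0) (b := min t₁ (1 / (T + 1))) le_rfl
    ((min_le_left _ _).trans ht₁'.2.le) (lt_min ht₁'.1 (by positivity))
  have h3 := key s₁ hs₁ (h2.trans_le (min_le_left _ _))
  have h3' : 1 / s₁ ≤ T := by
    have h5 := mul_le_mul_of_nonneg_left h3 hC.le
    have h6 : C * (C⁻¹ * (1 / s₁)) = 1 / s₁ := by field_simp
    have h7 : C * (1 / φ t₁ + C⁻¹ * (1 / t₁)) = T := by rw [hTdef]; field_simp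
    rw [h6, h7] at h5; exact h5
  have h4 : s₁ < 1 / (T + 1) := h2.trans_le (min_le_right _ _)
  rw [lt_div_iff₀ (by positivity)] at h4
  rw [div_le_iff₀ h1] at h3'
  nlinarith

end

end Vale.Agent.P233.H768
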