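import Vale.Agent.P233.Gig.IfE

/-!
# P233, block E45 (part 2): linear algebra at a fixed time
-/

set_option linter.all false

open MeasureTheory Set Filter Topology
open scoped InnerProductSpace

namespace Vale.Agent.P233.H768

/-! ### quadratic forms on finitely many coordinates -/

/-- quadratic form -/
def qf (K : ℕ → ℕ → ℝ) (I : Finset ℕ) (x : ℕ → ℝ) : ℝ := ∑ i ∈ I, ∑ j ∈ I, x i * x j * K i j

/-- linear combination -/
def lc {E : Type*} [AddCommGroup E] [Module ℝ E] (w : ℕ → E) (I : Finset ℕ) (x : ℕ → ℝ) : E :=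
  ∑ i ∈ I, x i • w i

section qf

variable {E : Type*} [NormedAddCommGroup E] [InnerProductSpace ℝ E]

theorem qf_inner (u w : ℕ → E) (I : Finset ℕ) (x : ℕ → ℝ) :
    qf (fun i j => ⟪u i, w j⟫_ℝ) I x = ⟪lc u I x, lc w I x⟫_ℝ := by
  rw [qf, lc, lc, sum_inner]
  refine Finset.sum_congr rfl fun i _ => ?_
  rw [inner_sum]
  refine Finset.sum_congr rfl fun j _ => ?_
  rw [real_inner_smul_left, real_inner_smul_right]; ring

theorem lc_inner (u : ℕ → E) (v : E) (I : Finset ℕ) (x : ℕ → ℝ) :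
    ∑ i ∈ I, x i * ⟪u i, v⟫_ℝ = ⟪lc u I x, v⟫_ℝ := by
  simp only [lc, sum_inner, real_inner_smul_left]

theorem qf_prod (p q : ℕ → ℝ) (I : Finset ℕ) (x : ℕ → ℝ) :
    qf (fun i j => p i * q j) I x = (∑ i ∈ I, x i * p i) * (∑ i ∈ I, x i * q i) := by
  simp only [qf, Finset.sum_mul_sum]
  refine Finset.sum_congr rfl fun i _ => Finset.sum_congr rfl fun j _ => by ring

theorem qf_add (K L : ℕ → ℕ → ℝ) (I : Finset ℕ) (x : ℕ → ℝ) :
    qf (fun i j => K i j + L i j) I x = qf K I x + qf L I x := by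
  simp only [qf, ← Finset.sum_add_distrib]
  refine Finset.sum_congr rfl fun i _ => Finset.sum_congr rfl fun j _ => by ring

theorem qf_sub (K L : ℕ → ℕ → ℝ) (I : Finset ℕ) (x : ℕ → ℝ) :
    qf (fun i j => K i j - L i j) I x = qf K I x - qf L I x := by
  simp only [qf, ← Finset.sum_sub_distrib]
  refine Finset.sum_congr rfl fun i _ => Finset.sum_congr rfl fun j _ => by ring

theorem qf_smul (c : ℝ) (K : ℕ → ℕ → ℝ) (I : Finset ℕ) (x : ℕ → ℝ) :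
    qf (fun i j => c * K i j) I x = c * qf K I x := by
  simp only [qf, Finset.mul_sum]
  refine Finset.sum_congr rfl fun i _ => Finset.sum_congr rfl fun j _ => by ring

theorem abs_qf_le (K : ℕ → ℕ → ℝ) (I : Finset ℕ) (x : ℕ → ℝ) {X : ℝ} (hx : ∀ i ∈ I, |x i| ≤ X) :
    |qf K I x| ≤ X ^ 2 * ∑ i ∈ I, ∑ j ∈ I, |K i j| := by
  rw [qf, Finset.mul_sum]
  refine (Finset.abs_sum_le_sum_abs _ _).trans (Finset.sum_le_sum fun i hi => ?_)
  rw [Finset.mul_sum]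
  refine (Finset.abs_sum_le_sum_abs _ _).trans (Finset.sum_le_sum fun j hj => ?_)
  rw [abs_mul, abs_mul]
  have h1 := hx i hi
  have h2 := hx j hj
  have : |x i| * |x j| ≤ X ^ 2 := by
    rw [pow_two]; exact mul_le_mul h1 h2 (abs_nonneg _) ((abs_nonneg _).trans h1)
  exact mul_le_mul_of_nonneg_right this (abs_nonneg _)

theorem continuous_qf (K : ℕ → ℕ → ℝ) (I : Finset ℕ) : Continuous fun x : ℕ → ℝ => qf K I x := by
  unfold qf
  refine continuous_finset_sum _ fun i _ => continuous_finset_sum _ fun j _ => ?_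
  exact ((continuous_apply i).mul (continuous_apply j)).mul continuous_const

theorem hasDerivAt_qf {K : ℝ → ℕ → ℕ → ℝ} {K' : ℕ → ℕ → ℝ} {t : ℝ} (I : Finset ℕ) (x : ℕ → ℝ)
    (h : ∀ i j, HasDerivAt (fun s => K s i j) (K' i j) t) :
    HasDerivAt (fun s => qf (K s) I x) (qf K' I x) t := by
  unfold qf
  refine HasDerivAt.fun_sum fun i _ => HasDerivAt.fun_sum fun j _ => ?_
  exact (h i j).const_mul _

theorem intervalIntegrable_qf {K : ℝ → ℕ → ℕ → ℝ} {s t : ℝ} (I : Finset ℕ) (x : ℕ → ℝ)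
    (h : ∀ i j, IntervalIntegrable (fun r => K r i j) volume s t) :
    IntervalIntegrable (fun r => qf (K r) I x) volume s t := by
  have h1 : (fun r => qf (K r) I x) = ∑ i ∈ I, ∑ j ∈ I, fun r => x i * x j * K r i j := by
    ext r; simp [qf, Finset.sum_apply]
  rw [h1]
  refine IntervalIntegrable.sum _ fun i _ => IntervalIntegrable.sum _ fun j _ => ?_
  exact (h i j).const_mul _

theorem integral_qf {K : ℝ → ℕ → ℕ → ℝ} {s t : ℝ} (I : Finset ℕ) (x : ℕ → ℝ)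
    (h : ∀ i j, IntervalIntegrable (fun r => K r i j) volume s t) :
    ∫ r in s..t, qf (K r) I x = qf (fun i j => ∫ r in s..t, K r i j) I x := by
  unfold qf
  rw [intervalIntegral.integral_finset_sum]
  · refine Finset.sum_congr rfl fun i _ => ?_
    rw [intervalIntegral.integral_finset_sum]
    · refine Finset.sum_congr rfl fun j _ => ?_
      rw [intervalIntegral.integral_const_mul]
    · intro j _; exact (h i j).const_mul _
  · intro i _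
    have h1 : (fun r => ∑ j ∈ I, x i * x j * K r i j) = ∑ j ∈ I, fun r => x i * x j * K r i j := by
      ext r; simp [Finset.sum_apply]
    rw [h1]
    exact IntervalIntegrable.sum _ fun j _ => (h i j).const_mul _

end qf

/-! ### the comparison operator -/

section alg

variable {E : Type*} [NormedAddCommGroup E] [InnerProductSpace ℝ E]

/-- `M g = A ⟨v̂,g⟩ v̂ + B (g - ⟨v̂,g⟩ v̂)` -/
noncomputable def Mop (A B l : ℝ) (v g : E) : E :=
  (A * ⟪g, v⟫_ℝ / l ^ 2) • v + B • (g - (⟪g, v⟫_ℝ / l ^ 2) • v)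

/-- the quadratic form of `Mop` -/
noncomputable def Mq (A B l N P : ℝ) : ℝ := P ^ 2 / l ^ 2 * A + B * (N - P ^ 2 / l ^ 2)

theorem Mop_inner (A B l : ℝ) (v g w : E) :
    ⟪Mop A B l v g, w⟫_ℝ = A * ⟪g, v⟫_ℝ * ⟪w, v⟫_ℝ / l ^ 2
      + B * (⟪g, w⟫_ℝ - ⟪g, v⟫_ℝ * ⟪w, v⟫_ℝ / l ^ 2) := by
  rw [Mop, inner_add_left, real_inner_smul_left, real_inner_smul_left, inner_sub_left,
    real_inner_smul_left, real_inner_comm w v]
  ring

theorem Mop_inner_self (A B l : ℝ) (v g : E) :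
    ⟪Mop A B l v g, g⟫_ℝ = Mq A B l (‖g‖ ^ 2) ⟪g, v⟫_ℝ := by
  rw [Mop_inner, Mq, real_inner_self_eq_norm_sq]
  ring

theorem Mop_symm (A B l : ℝ) (v g w : E) : ⟪Mop A B l v g, w⟫_ℝ = ⟪g, Mop A B l v w⟫_ℝ := by
  rw [← real_inner_comm g, Mop_inner, Mop_inner, real_inner_comm g w]
  ring

theorem Mop_norm_sq (A B l : ℝ) (v g : E) (hv : ‖v‖ = l) :
    ‖Mop A B l v g‖ ^ 2 = A ^ 2 * (⟪g, v⟫_ℝ ^ 2 / l ^ 2)
      + B ^ 2 * (‖g‖ ^ 2 - ⟪g, v⟫_ℝ ^ 2 / l ^ 2) := by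
  rw [← real_inner_self_eq_norm_sq, Mop_inner, Mop, inner_add_right, inner_add_left,
    real_inner_smul_right, real_inner_smul_left, real_inner_smul_right, real_inner_smul_left,
    inner_sub_right, inner_sub_left, real_inner_smul_right, real_inner_smul_left,
    real_inner_self_eq_norm_sq, real_inner_self_eq_norm_sq, hv]
  by_cases hl : l = 0
  · have hv0 : v = 0 := by rw [hl] at hv; exact norm_eq_zero.1 hv
    subst hl; subst hv0
    simp; ring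
  · field_simp
    ring

/-- `-⟨M g, g⟩ ≤ -μ` -/
theorem Mq_ge {A B l N P μ : ℝ} (hA : μ ≤ A) (hB : μ ≤ B) (hP : P ^ 2 ≤ l ^ 2 * N)
    (hN : 0 ≤ N) : μ * N ≤ Mq A B l N P := by
  rw [Mq]
  have h1 : 0 ≤ P ^ 2 / l ^ 2 := by positivity
  have h2 : P ^ 2 / l ^ 2 ≤ N := by
    by_cases hl : l = 0
    · subst hl; simpa using hN
    · rw [div_le_iff₀ (by positivity)]; linarith
  nlinarith [mul_le_mul_of_nonneg_right hA h1, mul_le_mul_of_nonneg_right hB (sub_nonneg.2 h2)]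

/-- the algebraic heart of the Riccati comparison -/
theorem key_identity (κ A B l y : ℝ) (v g a b : E) (hv : ‖v‖ = l) (hg : ‖g‖ = 1)
    (hb : b = y • g + Mop A B l v g) :
    -(y * (2 * ⟪g, a⟫_ℝ))
      - (-A ^ 2 * (⟪g, v⟫_ℝ ^ 2 / l ^ 2) + A * (2 * (⟪g, v⟫_ℝ * ⟪a, v⟫_ℝ) / l ^ 2)
        + (-B ^ 2 - κ * l ^ 2) * (‖g‖ ^ 2 - ⟪g, v⟫_ℝ ^ 2 / l ^ 2)
        + B * (2 * ⟪g, a⟫_ℝ - 2 * (⟪g, v⟫_ℝ * ⟪a, v⟫_ℝ) / l ^ 2))
      + (2 * ⟪b, a⟫_ℝ - ‖b‖ ^ 2 - κ * (‖g‖ ^ 2 * l ^ 2 - ⟪g, v⟫_ℝ ^ 2))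
    = -y ^ 2 - 2 * y * Mq A B l (‖g‖ ^ 2) ⟪g, v⟫_ℝ := by
  have h1 : ‖b‖ ^ 2 = y ^ 2 * ‖g‖ ^ 2 + 2 * y * Mq A B l (‖g‖ ^ 2) ⟪g, v⟫_ℝ
      + (A ^ 2 * (⟪g, v⟫_ℝ ^ 2 / l ^ 2) + B ^ 2 * (‖g‖ ^ 2 - ⟪g, v⟫_ℝ ^ 2 / l ^ 2)) := by
    rw [hb, norm_add_sq_real, Mop_norm_sq A B l v g hv, real_inner_smul_left, norm_smul,
      real_inner_comm, Mop_inner_self, mul_pow, Real.norm_eq_abs, sq_abs]
    ring
  have h2 : ⟪b, a⟫_ℝ = y * ⟪g, a⟫_ℝ + (A * ⟪g, v⟫_ℝ * ⟪a, v⟫_ℝ / l ^ 2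
      + B * (⟪g, a⟫_ℝ - ⟪g, v⟫_ℝ * ⟪a, v⟫_ℝ / l ^ 2)) := by
    rw [hb, inner_add_left, real_inner_smul_left, Mop_inner]
  have h3 : κ * l ^ 2 * (⟪g, v⟫_ℝ ^ 2 / l ^ 2) = κ * ⟪g, v⟫_ℝ ^ 2 := by
    by_cases hl : l = 0
    · have hv0 : v = 0 := by rw [hl] at hv; exact norm_eq_zero.1 hv
      subst hl; subst hv0; simp
    · field_simp
  rw [h1, h2, hg]
  linear_combination -h3

end alg

end Vale.Agent.P233.H768
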