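import Vale.Agent.P233.H768.Riccati2

/-!
# P233, block E45 (part 3): the largest relative eigenvalue at a fixed time
-/

set_option linter.all false

open MeasureTheory Set Filter Topology
open scoped InnerProductSpace

namespace Vale.Agent.P233.H768

section cm

variable {E : Type*} [AddCommGroup E] [Module ℝ E]

theorem cmr_eq (w : ℕ → E) (c : ℕ →₀ ℝ) : cmr w c = Finsupp.linearCombination ℝ w c := rfl

theorem cmr_add (w : ℕ → E) (c d : ℕ →₀ ℝ) : cmr w (c + d) = cmr w c + cmr w d := by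
  simp only [cmr_eq, map_add]

theorem cmr_sub (w : ℕ → E) (c d : ℕ →₀ ℝ) : cmr w (c - d) = cmr w c - cmr w d := by
  simp only [cmr_eq, map_sub]

theorem cmr_smul (w : ℕ → E) (r : ℝ) (c : ℕ →₀ ℝ) : cmr w (r • c) = r • cmr w c := by
  simp only [cmr_eq, map_smul]

theorem cmr_single (w : ℕ → E) (i : ℕ) (r : ℝ) : cmr w (Finsupp.single i r) = r • w i := by
  simp only [cmr_eq, Finsupp.linearCombination_single]

/-- restriction to `I` as a finitely supported function -/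
noncomputable def fs (I : Finset ℕ) (x : ℕ → ℝ) : ℕ →₀ ℝ := ∑ i ∈ I, Finsupp.single i (x i)

theorem cmr_fs (w : ℕ → E) (I : Finset ℕ) (x : ℕ → ℝ) : cmr w (fs I x) = lc w I x := by
  simp only [cmr_eq, fs, map_sum, Finsupp.linearCombination_single, lc]

theorem cmr_lc (w : ℕ → E) (c : ℕ →₀ ℝ) : cmr w c = lc w c.support c := rfl

theorem cmb_lc (w : ℕ → E) (c : ℕ →₀ ℚ) : cmb w c = lc w c.support (fun i => (c i : ℝ)) := rfl

theorem cmb_cmr (w : ℕ → E) (c : ℕ →₀ ℚ) :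
    cmb w c = cmr w (fs c.support (fun i => (c i : ℝ))) := by
  rw [cmr_fs, cmb_lc]

end cm

section pt

variable {E : Type*} [NormedAddCommGroup E] [InnerProductSpace ℝ E]

/-- data at a good time -/
structure Pt (l Λ : ℝ) (g b : ℕ → E) (v : E) (k : ℕ) : Prop where
  vn : ‖v‖ = l
  v_span : v ∈ (Submodule.span ℝ (range g)).topologicalClosure
  b_span : ∀ i, b i ∈ (Submodule.span ℝ (range g)).topologicalClosure
  symm : ∀ i j, ⟪b i, g j⟫_ℝ = ⟪g i, b j⟫_ℝ
  bound : ∀ c : ℕ →₀ ℝ, ‖cmr b c‖ ≤ Λ * ‖cmr g c‖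
  rank : RankEq (fun i j => ⟪g i, g j⟫_ℝ) k

/-- a frame -/
def Fr (G : ℕ → ℕ → ℝ) (k : ℕ) (I : Finset ℕ) : Prop :=
  I.card = k ∧ (Matrix.of fun i j : I => G i j).det ≠ 0

/-- bound of the coefficients -/
noncomputable def cb (G : ℕ → ℕ → ℝ) (I : Finset ℕ) : ℝ :=
  ∑ i : I, ∑ j : I, |(Matrix.of fun i j : I => G i j)⁻¹ i j| * √(G j j)

variable {l Λ : ℝ} {g b : ℕ → E} {v : E} {k : ℕ} {I : Finset ℕ}

theorem coef_le (hI : (Matrix.of fun i j : I => ⟪g i, g j⟫_ℝ).det ≠ 0) (x : ℕ → ℝ)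
    (hx : ‖lc g I x‖ ≤ 1) : ∀ i ∈ I, |x i| ≤ cb (fun i j => ⟪g i, g j⟫_ℝ) I := by
  classical
  intro i hi
  set A : Matrix I I ℝ := Matrix.of fun i j : I => ⟪g i, g j⟫_ℝ with hA
  have hu : IsUnit A.det := isUnit_iff_ne_zero.2 hI
  have h1 : A.mulVec (fun j : I => x j) = fun i : I => ⟪g i, lc g I x⟫_ℝ := by
    ext i
    simp only [Matrix.mulVec, dotProduct, hA, Matrix.of_apply]
    rw [lc, inner_sum, ← Finset.sum_coe_sort (s := I)]
    refine Finset.sum_congr rfl fun j _ => ?_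
    rw [real_inner_smul_right]; ring
  have h2 : (fun j : I => x j) = A⁻¹.mulVec (fun i : I => ⟪g i, lc g I x⟫_ℝ) := by
    rw [← h1, Matrix.mulVec_mulVec, Matrix.nonsing_inv_mul _ hu, Matrix.one_mulVec]
  have h3 : x i = ∑ j : I, A⁻¹ ⟨i, hi⟩ j * ⟪g j, lc g I x⟫_ℝ := by
    have := congrFun h2 ⟨i, hi⟩
    simpa [Matrix.mulVec, dotProduct] using this
  rw [h3]
  refine (Finset.abs_sum_le_sum_abs _ _).trans ?_
  have h4 : ∑ j : I, |A⁻¹ ⟨i, hi⟩ j * ⟪g j, lc g I x⟫_ℝ|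
      ≤ ∑ j : I, |A⁻¹ ⟨i, hi⟩ j| * √(⟪g j, g j⟫_ℝ) := by
    refine Finset.sum_le_sum fun j _ => ?_
    rw [abs_mul]
    refine mul_le_mul_of_nonneg_left ?_ (abs_nonneg _)
    refine (abs_real_inner_le_norm _ _).trans ?_
    rw [real_inner_self_eq_norm_sq, Real.sqrt_sq (norm_nonneg _)]
    exact mul_le_of_le_one_right (norm_nonneg _) hx
  refine h4.trans ?_
  rw [cb]
  exact Finset.single_le_sum (f := fun i : I => ∑ j : I, |A⁻¹ i j| * √(⟪g j, g j⟫_ℝ))
    (fun i _ => Finset.sum_nonneg fun j _ => by positivity) (Finset.mem_univ (⟨i, hi⟩ : I))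

theorem Pt.mem_span (h : Pt l Λ g b v k) (hI : Fr (fun i j => ⟪g i, g j⟫_ℝ) k I) (j : ℕ) :
    g j ∈ Submodule.span ℝ (g '' (I : Set ℕ)) := by
  classical
  by_cases hj : j ∈ I
  · exact Submodule.subset_span ⟨j, hj, rfl⟩
  · have h1 : LinearIndepOn ℝ g (I : Set ℕ) := by
      have : LinearIndependent ℝ (fun i : I => g i) :=
        Matrix.linearIndependent_of_det_gram_ne_zero (𝕜 := ℝ) hI.2
      exact this
    have h2 := h.rank.2 (insert j I) (by rw [Finset.card_insert_of_notMem hj, hI.1])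
    have h3 : ¬ LinearIndepOn ℝ g (insert j (I : Set ℕ)) := by
      intro h4
      have h5 : LinearIndependent ℝ (fun i : (insert j I : Finset ℕ) => g i) := by
        have e : (insert j (I : Set ℕ)) = ((insert j I : Finset ℕ) : Set ℕ) := by simp
        rw [e] at h4
        exact h4
      exact (Matrix.det_gram_ne_zero_iff_linearIndependent (𝕜 := ℝ)).2 h5 h2
    rw [linearIndepOn_insert (by exact_mod_cast hj)] at h3
    by_contra h6
    exact h3 ⟨h1, h6⟩

theorem Pt.exists_lc (h : Pt l Λ g b v k) (hI : Fr (fun i j => ⟪g i, g j⟫_ℝ) k I)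
    (c : ℕ →₀ ℝ) : ∃ x : ℕ → ℝ, (∀ i ∉ I, x i = 0) ∧ cmr g c = lc g I x ∧ cmr b c = lc b I x := by
  classical
  have h1 : cmr g c ∈ Submodule.span ℝ (g '' (I : Set ℕ)) := by
    rw [cmr_lc]
    exact Submodule.sum_mem _ fun i _ => Submodule.smul_mem _ _ (h.mem_span hI i)
  obtain ⟨x, hx⟩ := (Submodule.mem_span_image_finset_iff_exists_fun' ℝ).1 h1
  refine ⟨fun i => if i ∈ I then x i else 0, fun i hi => if_neg hi, ?_⟩
  have e : ∀ w : ℕ → E, lc w I (fun i => if i ∈ I then x i else 0) = lc w I x := by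
    intro w
    refine Finset.sum_congr rfl fun i hi => ?_
    simp only [if_pos hi]
  rw [e, e]
  have h2 : cmr g c = lc g I x := hx.symm
  refine ⟨h2, ?_⟩
  have h3 := h.bound (c - fs I x)
  rw [cmr_sub, cmr_sub, cmr_fs, cmr_fs, h2, sub_self, norm_zero, mul_zero] at h3
  exact sub_eq_zero.1 (norm_le_zero_iff.1 h3)

/-- the difference `H - M` as a quadratic form -/
noncomputable def Dq (A B l : ℝ) (v β γ : E) : ℝ := ⟪β, γ⟫_ℝ - Mq A B l (‖γ‖ ^ 2) ⟪γ, v⟫_ℝ

theorem Dq_smul (A B l r : ℝ) (v β γ : E) :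
    Dq A B l v (r • β) (r • γ) = r ^ 2 * Dq A B l v β γ := by
  have hn : ‖r • γ‖ ^ 2 = r ^ 2 * ‖γ‖ ^ 2 := by
    rw [norm_smul, mul_pow, Real.norm_eq_abs, sq_abs]
  rw [Dq, Dq, Mq, Mq, hn, real_inner_smul_left, real_inner_smul_right, real_inner_smul_left]
  ring

/-- the set of values on unit vectors -/
def Rv (A B l : ℝ) (g b : ℕ → E) (v : E) : Set ℝ :=
  {d | ∃ c : ℕ →₀ ℝ, ‖cmr g c‖ = 1 ∧ d = Dq A B l v (cmr b c) (cmr g c)}

/-- the positive part of the largest relative eigenvalue -/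
noncomputable def yv (A B l : ℝ) (g b : ℕ → E) (v : E) : ℝ := sSup (insert 0 (Rv A B l g b v))

theorem sq_div_le {l N P : ℝ} (hP : P ^ 2 ≤ l ^ 2 * N) (hN : 0 ≤ N) : P ^ 2 / l ^ 2 ≤ N := by
  by_cases hl : l = 0
  · subst hl; simpa using hN
  · rw [div_le_iff₀ (by positivity)]; linarith

theorem inner_sq_le (h : Pt l Λ g b v k) (w : E) : ⟪w, v⟫_ℝ ^ 2 ≤ l ^ 2 * ‖w‖ ^ 2 := by
  have h1 := abs_real_inner_le_norm w v
  rw [h.vn] at h1
  have h2 := abs_nonneg ⟪w, v⟫_ℝ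
  rw [← sq_abs]
  calc |⟪w, v⟫_ℝ| ^ 2 ≤ (‖w‖ * l) ^ 2 := pow_le_pow_left₀ h2 h1 2
    _ = l ^ 2 * ‖w‖ ^ 2 := by ring

theorem Pt.bdd (h : Pt l Λ g b v k) (A B : ℝ) : BddAbove (insert 0 (Rv A B l g b v)) := by
  refine BddAbove.insert _ ⟨|Λ| + (|A| + |B|), ?_⟩
  rintro _ ⟨c, hc, rfl⟩
  have h1 : ⟪cmr b c, cmr g c⟫_ℝ ≤ |Λ| := by
    refine (real_inner_le_norm _ _).trans ?_
    have := h.bound c
    rw [hc, mul_one] at this ⊢
    exact this.trans (le_abs_self _)
  have h2 := inner_sq_le h (cmr g c)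
  rw [hc] at h2
  have h3 := sq_div_le h2 (by norm_num)
  have h4 : 0 ≤ ⟪cmr g c, v⟫_ℝ ^ 2 / l ^ 2 := by positivity
  rw [Dq, Mq, hc]
  rw [one_pow] at *
  set q := ⟪cmr g c, v⟫_ℝ ^ 2 / l ^ 2
  have h5 : -|A| ≤ q * A := by
    have := neg_abs_le A
    nlinarith [abs_nonneg A]
  have h6 : -|B| ≤ B * (1 - q) := by
    have := neg_abs_le B
    nlinarith [abs_nonneg B]
  linarith

theorem Pt.y_nonneg (h : Pt l Λ g b v k) (A B : ℝ) : 0 ≤ yv A B l g b v :=
  le_csSup (h.bdd A B) (mem_insert _ _)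

theorem Pt.le_y (h : Pt l Λ g b v k) (A B : ℝ) (c : ℕ →₀ ℝ) :
    Dq A B l v (cmr b c) (cmr g c) ≤ yv A B l g b v * ‖cmr g c‖ ^ 2 := by
  by_cases h0 : ‖cmr g c‖ = 0
  · have h1 := h.bound c
    rw [h0, mul_zero] at h1
    have h2 : cmr b c = 0 := norm_le_zero_iff.1 h1
    have h3 : cmr g c = 0 := norm_eq_zero.1 h0
    rw [h2, h3]
    simp [Dq, Mq]
  · have h1 : Dq A B l v (cmr b (‖cmr g c‖⁻¹ • c)) (cmr g (‖cmr g c‖⁻¹ • c)) ≤ yv A B l g b v := by
      refine le_csSup (h.bdd A B) (mem_insert_of_mem _ ⟨‖cmr g c‖⁻¹ • c, ?_, rfl⟩)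
      rw [cmr_smul, norm_smul, norm_inv, norm_norm, inv_mul_cancel₀ h0]
    rw [cmr_smul, cmr_smul, Dq_smul] at h1
    have h2 : 0 < ‖cmr g c‖ ^ 2 := by positivity
    have h3 := mul_le_mul_of_nonneg_left h1 h2.le
    rw [← mul_assoc, inv_pow, mul_inv_cancel₀ h2.ne', one_mul] at h3
    linarith

theorem continuous_lc (w : ℕ → E) (I : Finset ℕ) : Continuous fun x : ℕ → ℝ => lc w I x := by
  unfold lc
  exact continuous_finset_sum _ fun i _ => (continuous_apply i).smul continuous_const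

theorem perp_zero {w : E} (h1 : w ∈ (Submodule.span ℝ (range g)).topologicalClosure)
    (h2 : ∀ j, ⟪w, g j⟫_ℝ = 0) : w = 0 := by
  have h3 : ∀ y ∈ Submodule.span ℝ (range g), ⟪y, w⟫_ℝ = 0 := by
    intro y hy
    induction hy using Submodule.span_induction with
    | mem y hy => obtain ⟨j, rfl⟩ := hy; rw [real_inner_comm]; exact h2 j
    | zero => simp
    | add y z _ _ h4 h5 => rw [inner_add_left, h4, h5, add_zero]
    | smul r y _ h4 => rw [real_inner_smul_left, h4, mul_zero]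
  have h4 := (Submodule.orthogonal_closure' _ w).1 h3 w h1
  exact inner_self_eq_zero.1 h4

theorem lc_mem (w : ℕ → E) (S : Submodule ℝ E) (hw : ∀ i, w i ∈ S) (I : Finset ℕ) (x : ℕ → ℝ) :
    lc w I x ∈ S := Submodule.sum_mem _ fun i _ => Submodule.smul_mem _ _ (hw i)

/-- **the maximiser and the first order condition** -/
theorem Pt.exists_max (h : Pt l Λ g b v k) (hI : Fr (fun i j => ⟪g i, g j⟫_ℝ) k I) (A B : ℝ)
    (hy : 0 < yv A B l g b v) : ∃ x : ℕ → ℝ,
      (∀ i ∈ I, |x i| ≤ cb (fun i j => ⟪g i, g j⟫_ℝ) I) ∧ ‖lc g I x‖ = 1 ∧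
      lc b I x = yv A B l g b v • lc g I x + Mop A B l v (lc g I x) := by
  classical
  set y := yv A B l g b v with hydef
  set X := cb (fun i j => ⟪g i, g j⟫_ℝ) I with hX
  set S : Set (ℕ → ℝ) := {x | (∀ i ∉ I, x i = 0) ∧ ‖lc g I x‖ = 1} with hS
  have hSc : IsCompact S := by
    have h1 : IsCompact (Set.pi univ fun _ : ℕ => Icc (-|X|) |X|) :=
      isCompact_univ_pi fun _ => isCompact_Icc
    refine h1.of_isClosed_subset ?_ ?_
    · have e : S = (⋂ i : ℕ, {x : ℕ → ℝ | i ∉ I → x i = 0}) ∩ {x | ‖lc g I x‖ = 1} := by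
        ext x; simp [hS]
      rw [e]
      refine IsClosed.inter (isClosed_iInter fun i => ?_)
        (isClosed_eq (continuous_lc g I).norm continuous_const)
      by_cases hi : i ∈ I
      · have : {x : ℕ → ℝ | i ∉ I → x i = 0} = univ := by ext x; simp [hi]
        rw [this]; exact isClosed_univ
      · have : {x : ℕ → ℝ | i ∉ I → x i = 0} = {x | x i = 0} := by ext x; simp [hi]
        rw [this]; exact isClosed_eq (continuous_apply i) continuous_const
    · rintro x ⟨hx1, hx2⟩ i _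
      by_cases hi : i ∈ I
      · have := coef_le hI.2 x hx2.le i hi
        have h2 := this.trans (le_abs_self X)
        exact abs_le.1 h2
      · simp only [hx1 i hi]
        exact ⟨by simp, by simp⟩
  have hDc : Continuous fun x : ℕ → ℝ => Dq A B l v (lc b I x) (lc g I x) := by
    unfold Dq Mq
    have h1 := continuous_lc b I
    have h2 := continuous_lc g I
    have h3 : Continuous fun x : ℕ → ℝ => ⟪lc b I x, lc g I x⟫_ℝ := h1.inner h2
    have h4 : Continuous fun x : ℕ → ℝ => ⟪lc g I x, v⟫_ℝ := h2.inner continuous_const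
    have h5 : Continuous fun x : ℕ → ℝ => ‖lc g I x‖ ^ 2 := h2.norm.pow 2
    exact h3.sub ((((h4.pow 2).div_const _).mul continuous_const).add
      (continuous_const.mul (h5.sub ((h4.pow 2).div_const _))))
  have hSne : S.Nonempty := by
    by_contra hne
    have hR : Rv A B l g b v = ∅ := by
      rw [eq_empty_iff_forall_notMem]
      rintro _ ⟨c, hc, rfl⟩
      obtain ⟨x, hx0, hx1, hx2⟩ := h.exists_lc hI c
      exact hne ⟨x, hx0, by rw [← hx1]; exact hc⟩
    have : y = 0 := by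
      rw [hydef, yv, hR]; simp
    linarith
  obtain ⟨x, hxS, hmax⟩ := hSc.exists_isMaxOn hSne hDc.continuousOn
  refine ⟨x, coef_le hI.2 x hxS.2.le, hxS.2, ?_⟩
  have hle : y ≤ max 0 (Dq A B l v (lc b I x) (lc g I x)) := by
    refine csSup_le (insert_nonempty _ _) ?_
    rintro d (rfl | ⟨c, hc, rfl⟩)
    · exact le_max_left _ _
    · obtain ⟨z, hz0, hz1, hz2⟩ := h.exists_lc hI c
      rw [hz1, hz2]
      exact (hmax (show z ∈ S from ⟨hz0, by rw [← hz1]; exact hc⟩)).trans (le_max_right _ _)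
  have hge : Dq A B l v (lc b I x) (lc g I x) ≤ y := by
    have := h.le_y A B (fs I x)
    rw [cmr_fs, cmr_fs, hxS.2] at this
    simpa using this
  have heq : Dq A B l v (lc b I x) (lc g I x) = y := by
    rcases max_cases 0 (Dq A B l v (lc b I x) (lc g I x)) with ⟨h1, _⟩ | ⟨h1, _⟩
    · rw [h1] at hle; linarith
    · rw [h1] at hle; linarith
  set gx := lc g I x with hgx
  set bx := lc b I x with hbx
  have hperp : ∀ j, ⟪bx - (y • gx + Mop A B l v gx), g j⟫_ℝ = 0 := by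
    intro j
    have hs : ∀ s : ℝ, 0 ≤ s ^ 2 * (y * ‖g j‖ ^ 2 - Dq A B l v (b j) (g j))
        + s * (2 * (y * ⟪gx, g j⟫_ℝ + ⟪Mop A B l v gx, g j⟫_ℝ - ⟪bx, g j⟫_ℝ)) := by
      intro s
      have h1 := h.le_y A B (fs I x + Finsupp.single j s)
      rw [cmr_add, cmr_add, cmr_fs, cmr_fs, cmr_single, cmr_single, ← hgx, ← hbx, ← hydef] at h1
      have h2 : ⟪bx, g j⟫_ℝ = ⟪gx, b j⟫_ℝ := by
        rw [hgx, hbx, ← lc_inner, ← lc_inner]
        refine Finset.sum_congr rfl fun i _ => ?_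
        rw [h.symm i j]
      have h3 : Dq A B l v (bx + s • b j) (gx + s • g j) = y + s ^ 2 * Dq A B l v (b j) (g j)
          + s * (2 * (⟪bx, g j⟫_ℝ - ⟪Mop A B l v gx, g j⟫_ℝ)) := by
        have h2' : ⟪b j, gx⟫_ℝ = ⟪bx, g j⟫_ℝ := by rw [real_inner_comm, h2]
        have hn : ‖gx + s • g j‖ ^ 2 = ‖gx‖ ^ 2 + 2 * (s * ⟪gx, g j⟫_ℝ) + s ^ 2 * ‖g j‖ ^ 2 := by
          rw [norm_add_sq_real, norm_smul, real_inner_smul_right, mul_pow, Real.norm_eq_abs, sq_abs]
        rw [← heq]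
        simp only [Dq, Mq]
        rw [Mop_inner, inner_add_left, inner_add_right, inner_add_right, inner_add_left,
          real_inner_smul_left, real_inner_smul_right, real_inner_smul_left, real_inner_smul_right,
          real_inner_smul_left, hn, h2']
        ring
      have h4 : ‖gx + s • g j‖ ^ 2 = 1 + s ^ 2 * ‖g j‖ ^ 2 + s * (2 * ⟪gx, g j⟫_ℝ) := by
        rw [norm_add_sq_real, norm_smul, real_inner_smul_right, mul_pow, Real.norm_eq_abs, sq_abs,
          hxS.2]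
        ring
      rw [h3, h4] at h1
      linarith
    have hz : 2 * (y * ⟪gx, g j⟫_ℝ + ⟪Mop A B l v gx, g j⟫_ℝ - ⟪bx, g j⟫_ℝ) = 0 := by
      set β := 2 * (y * ⟪gx, g j⟫_ℝ + ⟪Mop A B l v gx, g j⟫_ℝ - ⟪bx, g j⟫_ℝ)
      set α := y * ‖g j‖ ^ 2 - Dq A B l v (b j) (g j)
      by_contra hne
      have hα : 0 ≤ α := by
        have := h.le_y A B (Finsupp.single j 1)
        rw [cmr_single, cmr_single, one_smul, one_smul] at this
        linarith
      have h1 := hs (-β / (α + 1))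
      have h2 : (-β / (α + 1)) ^ 2 * α + (-β / (α + 1)) * β = -(β ^ 2 / (α + 1) ^ 2) := by
        field_simp; ring
      rw [h2] at h1
      have h3 : 0 < β ^ 2 / (α + 1) ^ 2 := by positivity
      linarith
    rw [inner_sub_left, inner_add_left, real_inner_smul_left]
    linarith
  have hmem : bx - (y • gx + Mop A B l v gx) ∈
      (Submodule.span ℝ (range g)).topologicalClosure := by
    have hg : ∀ i, g i ∈ (Submodule.span ℝ (range g)).topologicalClosure := fun i =>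
      Submodule.le_topologicalClosure _ (Submodule.subset_span ⟨i, rfl⟩)
    have h1 := lc_mem g _ hg I x
    have h2 := lc_mem b _ h.b_span I x
    refine Submodule.sub_mem _ h2 (Submodule.add_mem _ (Submodule.smul_mem _ _ h1) ?_)
    unfold Mop
    exact Submodule.add_mem _ (Submodule.smul_mem _ _ h.v_span) (Submodule.smul_mem _ _
      (Submodule.sub_mem _ h1 (Submodule.smul_mem _ _ h.v_span)))
  exact sub_eq_zero.1 (perp_zero hmem hperp)

end pt

end Vale.Agent.P233.H768
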