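import Vale.Agent.P233.H933.Rad1
import Vale.Agent.P233.H768.Riccati1
import Vale.Agent.P233.H768.Riccati3

/-!
# P233, block E45 (part 4): absolutely continuous functions on `(0,1)`, the comparison function
-/

set_option linter.all false

open MeasureTheory Set Filter Topology
open scoped InnerProductSpace

namespace Vale.Agent.P233.H768

/-- locally absolutely continuous on `(0,1)` -/
structure LAC (f f' : ℝ → ℝ) : Prop where
  int : ∀ s ∈ Ioo (0:ℝ) 1, ∀ t ∈ Ioo (0:ℝ) 1, IntervalIntegrable f' volume s t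
  eq : ∀ s ∈ Ioo (0:ℝ) 1, ∀ t ∈ Ioo (0:ℝ) 1, f t - f s = ∫ r in s..t, f' r

theorem uIcc_sub {s t : ℝ} (hs : s ∈ Ioo (0:ℝ) 1) (ht : t ∈ Ioo (0:ℝ) 1) :
    uIcc s t ⊆ Ioo (0:ℝ) 1 := fun x hx => by
  rcases le_total s t with h | h
  · rw [uIcc_of_le h] at hx; exact ⟨hs.1.trans_le hx.1, hx.2.trans_lt ht.2⟩
  · rw [uIcc_of_ge h] at hx; exact ⟨ht.1.trans_le hx.1, hx.2.trans_lt hs.2⟩

theorem ae_Ioo {p : ℝ → Prop} (h : ∀ᵐ t ∂(volume.restrict (Ioo (0:ℝ) 1)), p t) :
    ∀ᵐ t : ℝ, t ∈ Ioo (0:ℝ) 1 → p t := (ae_restrict_iff' measurableSet_Ioo).1 h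

/-- a local a.e. statement on `(0,1)` -/
theorem ae_of_Icc {p : ℝ → Prop}
    (h : ∀ α ∈ Ioo (0:ℝ) 1, ∀ β ∈ Ioo (0:ℝ) 1, α < β → ∀ᵐ t : ℝ, t ∈ Ioo α β → p t) :
    ∀ᵐ t : ℝ, t ∈ Ioo (0:ℝ) 1 → p t := by
  have h1 : ∀ᵐ t : ℝ, ∀ n : ℕ, t ∈ Ioo (1 / ((n:ℝ) + 3)) (1 - 1 / ((n:ℝ) + 3)) → p t := by
    rw [ae_all_iff]
    intro n
    have h3 : (0:ℝ) < 1 / ((n:ℝ) + 3) := by positivity
    have h4 : 1 / ((n:ℝ) + 3) ≤ 1 / 3 :=
      one_div_le_one_div_of_le (by norm_num) (by have : (0:ℝ) ≤ n := by positivity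
                                                 linarith)
    exact h _ ⟨h3, by linarith⟩ _ ⟨by linarith, by linarith⟩ (by linarith)
  filter_upwards [h1] with t ht ht01
  have hm : 0 < min t (1 - t) := lt_min ht01.1 (by linarith [ht01.2])
  obtain ⟨n, hn⟩ := exists_nat_gt (1 / min t (1 - t))
  refine ht n ?_
  have h5 : 1 / ((n:ℝ) + 3) < min t (1 - t) := by
    rw [div_lt_iff₀ (by positivity)]
    rw [div_lt_iff₀ hm] at hn
    nlinarith
  exact ⟨h5.trans_le (min_le_left _ _), by linarith [h5.trans_le (min_le_right t (1 - t))]⟩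

namespace LAC

variable {f f' g g' : ℝ → ℝ}

theorem cont (h : LAC f f') : ContinuousOn f (Ioo (0:ℝ) 1) := by
  intro t ht
  obtain ⟨α, hα0, hα⟩ := exists_between ht.1
  obtain ⟨β, hβ, hβ1⟩ := exists_between ht.2
  have hα' : α ∈ Ioo (0:ℝ) 1 := ⟨hα0, hα.trans ht.2⟩
  have hβ' : β ∈ Ioo (0:ℝ) 1 := ⟨ht.1.trans hβ, hβ1⟩
  have h1 : ContinuousOn (fun x => ∫ r in α..x, f' r) (Icc α β) := by
    have := intervalIntegral.continuousOn_primitive_interval' (h.int α hα' β hβ') left_mem_uIcc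
    rwa [uIcc_of_le (hα.trans hβ).le] at this
  have h2 : ContinuousOn f (Icc α β) := by
    refine (h1.add (continuousOn_const : ContinuousOn (fun _ => f α) _)).congr fun x hx => ?_
    have := h.eq α hα' x ⟨hα0.trans_le hx.1, hx.2.trans_lt hβ1⟩
    show f x = (∫ r in α..x, f' r) + f α
    linarith
  exact ((h2 t ⟨hα.le, hβ.le⟩).continuousAt (Icc_mem_nhds hα hβ)).continuousWithinAt

theorem ae_deriv (h : LAC f f') : ∀ᵐ t : ℝ, t ∈ Ioo (0:ℝ) 1 → HasDerivAt f (f' t) t := by
  refine ae_of_Icc fun α hα β hβ hαβ => ?_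
  filter_upwards [(h.int α hα β hβ).ae_hasDerivAt_integral] with t ht ht2
  have h1 := ht (by rw [uIcc_of_le hαβ.le]; exact ⟨ht2.1.le, ht2.2.le⟩) α left_mem_uIcc
  have h2 : HasDerivAt (fun x => f α + ∫ r in α..x, f' r) (f' t) t := by
    simpa using h1.const_add (f α)
  refine h2.congr_of_eventuallyEq ?_
  filter_upwards [Ioo_mem_nhds ht2.1 ht2.2] with x hx
  have := h.eq α hα x ⟨hα.1.trans hx.1, hx.2.trans hβ.2⟩
  linarith

theorem add (h : LAC f f') (k : LAC g g') : LAC (fun t => f t + g t) (fun t => f' t + g' t) where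
  int s hs t ht := (h.int s hs t ht).add (k.int s hs t ht)
  eq s hs t ht := by
    rw [intervalIntegral.integral_add (h.int s hs t ht) (k.int s hs t ht), ← h.eq s hs t ht,
      ← k.eq s hs t ht]
    ring

theorem sub (h : LAC f f') (k : LAC g g') : LAC (fun t => f t - g t) (fun t => f' t - g' t) where
  int s hs t ht := (h.int s hs t ht).sub (k.int s hs t ht)
  eq s hs t ht := by
    rw [intervalIntegral.integral_sub (h.int s hs t ht) (k.int s hs t ht), ← h.eq s hs t ht,
      ← k.eq s hs t ht]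
    ring

theorem const_mul (h : LAC f f') (c : ℝ) : LAC (fun t => c * f t) (fun t => c * f' t) where
  int s hs t ht := (h.int s hs t ht).const_mul c
  eq s hs t ht := by
    rw [intervalIntegral.integral_const_mul, ← h.eq s hs t ht]
    ring

theorem mul (h : LAC f f') (k : LAC g g') :
    LAC (fun t => f t * g t) (fun t => f' t * g t + f t * g' t) where
  int s hs t ht := by
    have hf : ContinuousOn f (uIcc s t) := h.cont.mono (uIcc_sub hs ht)
    have hg : ContinuousOn g (uIcc s t) := k.cont.mono (uIcc_sub hs ht)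
    exact ((h.int s hs t ht).mul_continuousOn hg).add ((k.int s hs t ht).continuousOn_mul hf)
  eq s hs t ht := by
    have h1 := (h.int s hs t ht).absolutelyContinuousOnInterval_intervalIntegral
      (c := s) left_mem_uIcc
    have k1 := (k.int s hs t ht).absolutelyContinuousOnInterval_intervalIntegral
      (c := s) left_mem_uIcc
    have hc : ∀ c : ℝ, AbsolutelyContinuousOnInterval (fun _ : ℝ => c) s t := fun c =>
      (LipschitzWith.const c).lipschitzOnWith.absolutelyContinuousOnInterval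
    have h2 := (hc (f s)).fun_add h1
    have k2 := (hc (g s)).fun_add k1
    have h3 := h2.integral_deriv_mul_eq_sub k2
    have eF : ∀ x ∈ uIcc s t, f s + ∫ r in s..x, f' r = f x := by
      intro x hx
      have := h.eq s hs x (uIcc_sub hs ht hx)
      linarith
    have eG : ∀ x ∈ uIcc s t, g s + ∫ r in s..x, g' r = g x := by
      intro x hx
      have := k.eq s hs x (uIcc_sub hs ht hx)
      linarith
    rw [eF t right_mem_uIcc, eG t right_mem_uIcc, eF s left_mem_uIcc, eG s left_mem_uIcc] at h3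
    rw [← h3]
    refine intervalIntegral.integral_congr_ae ?_
    filter_upwards [(h.int s hs t ht).ae_hasDerivAt_integral,
      (k.int s hs t ht).ae_hasDerivAt_integral] with x hx1 hx2 hx
    have hx' : x ∈ uIcc s t := uIoc_subset_uIcc hx
    have e1 := (hx1 hx' s left_mem_uIcc).const_add (f s)
    have e2 := (hx2 hx' s left_mem_uIcc).const_add (g s)
    rw [e1.deriv, e2.deriv, eF x hx', eG x hx']

theorem of_hasDeriv (h : ∀ t ∈ Ioo (0:ℝ) 1, HasDerivAt f (f' t) t)
    (hc : ContinuousOn f' (Ioo (0:ℝ) 1)) : LAC f f' where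
  int s hs t ht := (hc.mono (uIcc_sub hs ht)).intervalIntegrable
  eq s hs t ht := (intervalIntegral.integral_eq_sub_of_hasDerivAt
    (fun x hx => h x (uIcc_sub hs ht hx)) (hc.mono (uIcc_sub hs ht)).intervalIntegrable).symm

end LAC

/-! ### the comparison function -/

theorem cs_sn (κ r : ℝ) : cs κ r ^ 2 + κ * sn κ r ^ 2 = 1 := by
  unfold cs sn
  rcases lt_trichotomy κ 0 with h | h | h
  · rw [if_neg h.ne, if_neg (not_lt.2 h.le), if_neg h.ne, if_neg (not_lt.2 h.le), div_pow,
      Real.sq_sqrt (by linarith)]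
    have := Real.cosh_sq (√(-κ) * r)
    rw [this, div_neg, mul_neg, mul_div_cancel₀ _ h.ne]
    ring
  · subst h; simp
  · rw [if_neg h.ne', if_pos h, if_neg h.ne', if_pos h, div_pow, Real.sq_sqrt h.le]
    have := Real.cos_sq_add_sin_sq (√κ * r)
    field_simp
    linarith

/-- `l cs(lt)/sn(lt)`, `1/t` if `l = 0` -/
noncomputable def Bf (κ l t : ℝ) : ℝ :=
  open Classical in if l = 0 then t⁻¹ else l * cs κ (l * t) / sn κ (l * t)

theorem Mv_eq (κ l t A B : ℝ) : Mv κ l t A B = Mq t⁻¹ (Bf κ l t) l A B := by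
  unfold Mv Mq Bf
  by_cases hl : l = 0
  · subst hl; simp; ring
  · rw [if_neg hl, if_neg hl]; ring

theorem lt_pi {κ l t : ℝ} (hl : 0 ≤ l) (hκ : √κ * l < Real.pi) (ht : t ∈ Ioo (0:ℝ) 1) :
    √κ * (l * t) < Real.pi := by
  have h1 : √κ * (l * t) ≤ √κ * l := by
    have : l * t ≤ l := by nlinarith [ht.2]
    exact mul_le_mul_of_nonneg_left this (Real.sqrt_nonneg _)
  linarith

theorem hasDerivAt_sl (κ l t : ℝ) : HasDerivAt (fun t => sn κ (l * t)) (cs κ (l * t) * l) t := by
  have h1 : HasDerivAt (fun t : ℝ => l * t) l t := by simpa using (hasDerivAt_id t).const_mul l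
  exact (H933.hasDerivAt_sn κ (l * t)).comp t h1

theorem hasDerivAt_cl (κ l t : ℝ) :
    HasDerivAt (fun t => cs κ (l * t)) (-κ * sn κ (l * t) * l) t := by
  have h1 : HasDerivAt (fun t : ℝ => l * t) l t := by simpa using (hasDerivAt_id t).const_mul l
  exact (H933.hasDerivAt_cs κ (l * t)).comp t h1

theorem hasDerivAt_Bf {κ l t : ℝ} (hl : 0 ≤ l) (hκ : √κ * l < Real.pi) (ht : t ∈ Ioo (0:ℝ) 1) :
    HasDerivAt (Bf κ l) (-Bf κ l t ^ 2 - κ * l ^ 2) t := by
  by_cases h0 : l = 0
  · subst h0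
    have e : Bf κ 0 = fun t => t⁻¹ := by ext t; simp [Bf]
    rw [e]
    refine (hasDerivAt_inv ht.1.ne').congr_deriv ?_
    simp
  · have hl' : 0 < l := lt_of_le_of_ne hl (Ne.symm h0)
    have e : Bf κ l = fun t => l * cs κ (l * t) / sn κ (l * t) := by ext t; simp [Bf, h0]
    have hs : 0 < sn κ (l * t) := H933.sn_pos (mul_pos hl' ht.1) (lt_pi hl hκ ht)
    rw [e]
    refine (((hasDerivAt_cl κ l t).const_mul l).div (hasDerivAt_sl κ l t) hs.ne').congr_deriv ?_
    have hc := cs_sn κ (l * t)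
    simp only
    field_simp
    ring

theorem lac_Bf {κ l : ℝ} (hl : 0 ≤ l) (hκ : √κ * l < Real.pi) :
    LAC (Bf κ l) (fun t => -Bf κ l t ^ 2 - κ * l ^ 2) := by
  refine LAC.of_hasDeriv (fun t ht => hasDerivAt_Bf hl hκ ht) ?_
  have : ContinuousOn (Bf κ l) (Ioo 0 1) := fun t ht =>
    (hasDerivAt_Bf hl hκ ht).continuousAt.continuousWithinAt
  exact (this.pow 2).neg.sub continuousOn_const

theorem lac_inv : LAC (fun t : ℝ => t⁻¹) (fun t => -t⁻¹ ^ 2) := by
  refine LAC.of_hasDeriv (fun t ht => ?_) ?_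
  · refine (hasDerivAt_inv ht.1.ne').congr_deriv ?_
    simp
  · have : ContinuousOn (fun t : ℝ => t⁻¹) (Ioo 0 1) :=
      continuousOn_inv₀.mono fun t ht => ht.1.ne'
    exact (this.pow 2).neg

/-- `r cs r - sn r` has the sign of `-κ` -/
theorem cs_sub_sn {κ r : ℝ} (hr : 0 < r) (hκ : √κ * r < Real.pi) :
    (κ ≤ 0 → sn κ r ≤ r * cs κ r) ∧ (0 ≤ κ → r * cs κ r ≤ sn κ r) := by
  set h : ℝ → ℝ := fun r => r * cs κ r - sn κ r with hh
  have hd : ∀ x, HasDerivAt h (-κ * (x * sn κ x)) x := by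
    intro x
    refine (((hasDerivAt_id x).mul (H933.hasDerivAt_cs κ x)).sub
      (H933.hasDerivAt_sn κ x)).congr_deriv ?_
    simp
    ring
  have h0 : h 0 = 0 := by simp [hh, H933.sn_zero]
  have hpos : ∀ x ∈ interior (Icc 0 r), 0 ≤ x * sn κ x := by
    intro x hx
    rw [interior_Icc] at hx
    have : 0 < sn κ x := H933.sn_pos hx.1 (lt_of_le_of_lt
      (mul_le_mul_of_nonneg_left hx.2.le (Real.sqrt_nonneg _)) hκ)
    exact mul_nonneg hx.1.le this.le
  have hcont : ContinuousOn h (Icc 0 r) := fun x _ => (hd x).continuousAt.continuousWithinAt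
  constructor
  · intro hk
    have hm : MonotoneOn h (Icc 0 r) := monotoneOn_of_deriv_nonneg (convex_Icc _ _) hcont
      (fun x _ => (hd x).differentiableAt.differentiableWithinAt) (fun x hx => by
        rw [(hd x).deriv]; have := hpos x hx; nlinarith)
    have := hm (left_mem_Icc.2 hr.le) (right_mem_Icc.2 hr.le) hr.le
    rw [h0] at this
    simp only [hh] at this
    linarith
  · intro hk
    have hm : AntitoneOn h (Icc 0 r) := antitoneOn_of_deriv_nonpos (convex_Icc _ _) hcont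
      (fun x _ => (hd x).differentiableAt.differentiableWithinAt) (fun x hx => by
        rw [(hd x).deriv]; have := hpos x hx; nlinarith)
    have := hm (left_mem_Icc.2 hr.le) (right_mem_Icc.2 hr.le) hr.le
    rw [h0] at this
    simp only [hh] at this
    linarith

theorem wt_sq {μ : ℝ → ℝ} (hμ : ∀ t ∈ Ioo (0:ℝ) 1, μ t = t⁻¹) : Wt (fun t : ℝ => t ^ 2) μ where
  cd := contDiff_id.pow 2
  pos t ht := by have := ht.1; positivity
  der t ht := by
    have h1 : deriv (fun t : ℝ => t ^ 2) t = 2 * t := by simp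
    rw [h1, hμ t ht]
    have := ht.1.ne'
    field_simp
    linarith
  le := ⟨1, one_pos, fun t ht => by simp⟩

/-- **weights**: there are `μ ≤ min (1/t, Bf t)` and a weight for `μ`. -/
theorem exists_wt {κ l : ℝ} (hl : 0 ≤ l) (hκ : √κ * l < Real.pi) :
    ∃ μ θ : ℝ → ℝ, Wt θ μ ∧ ∀ t ∈ Ioo (0:ℝ) 1, μ t ≤ t⁻¹ ∧ μ t ≤ Bf κ l t := by
  by_cases h0 : l = 0
  · refine ⟨fun t => t⁻¹, fun t => t ^ 2, wt_sq fun _ _ => rfl, fun t ht => ⟨le_rfl, ?_⟩⟩
    simp [Bf, h0]
  have hl' : 0 < l := lt_of_le_of_ne hl (Ne.symm h0)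
  have hs : ∀ t ∈ Ioo (0:ℝ) 1, 0 < sn κ (l * t) := fun t ht =>
    H933.sn_pos (mul_pos hl' ht.1) (lt_pi hl hκ ht)
  rcases le_total κ 0 with hk | hk
  · refine ⟨fun t => t⁻¹, fun t => t ^ 2, wt_sq fun _ _ => rfl, fun t ht => ⟨le_rfl, ?_⟩⟩
    rw [Bf, if_neg h0, le_div_iff₀ (hs t ht)]
    have h1 := (cs_sub_sn (mul_pos hl' ht.1) (lt_pi hl hκ ht)).1 hk
    rw [inv_mul_le_iff₀ ht.1]
    linarith
  · refine ⟨Bf κ l, fun t => sn κ (l * t) ^ 2, ?_, fun t ht => ⟨?_, le_rfl⟩⟩
    · have hd : ∀ t, HasDerivAt (fun t => sn κ (l * t) ^ 2)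
          (2 * sn κ (l * t) * (cs κ (l * t) * l)) t := by
        intro t
        refine ((hasDerivAt_sl κ l t).pow 2).congr_deriv ?_
        simp
      refine ⟨?_, fun t ht => pow_pos (hs t ht) 2, fun t ht => ?_, ?_⟩
      · rw [contDiff_one_iff_deriv]
        refine ⟨fun t => (hd t).differentiableAt, ?_⟩
        have e : deriv (fun t => sn κ (l * t) ^ 2)
            = fun t => 2 * sn κ (l * t) * (cs κ (l * t) * l) := by ext t; exact (hd t).deriv
        rw [e]
        have h1 := (H933.continuous_sn κ).comp (continuous_const.mul continuous_id : Continuous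
          fun t : ℝ => l * t)
        have h2 := (H933.continuous_cs κ).comp (continuous_const.mul continuous_id : Continuous
          fun t : ℝ => l * t)
        exact (continuous_const.mul h1).mul (h2.mul continuous_const)
      · rw [(hd t).deriv, Bf, if_neg h0]
        have := (hs t ht).ne'
        field_simp
        exact le_rfl
      · refine ⟨l ^ 2, by positivity, fun t ht => ?_⟩
        have h1 : sn κ (l * t) ≤ l * t := by
          have hr : 0 < l * t := mul_pos hl' ht.1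
          have hcs : ∀ x, cs κ x ≤ 1 := by
            intro x
            have h2 := cs_sn κ x
            have h3 : 0 ≤ κ * sn κ x ^ 2 := by positivity
            nlinarith
          have hm : AntitoneOn (fun x => sn κ x - x) (Icc 0 (l * t)) := by
            refine antitoneOn_of_deriv_nonpos (convex_Icc _ _)
              ((H933.continuous_sn κ).sub continuous_id).continuousOn ?_ ?_
            · intro x _
              exact ((H933.hasDerivAt_sn κ x).sub (hasDerivAt_id x)).differentiableAt.differentiableWithinAt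
            · intro x _
              have := ((H933.hasDerivAt_sn κ x).sub (hasDerivAt_id x)).deriv
              have e : deriv (fun x => sn κ x - x) x = cs κ x - 1 := this
              rw [e]; linarith [hcs x]
          have := hm (left_mem_Icc.2 hr.le) (right_mem_Icc.2 hr.le) hr.le
          simp only [H933.sn_zero] at this
          linarith
        have h2 := hs t ht
        calc sn κ (l * t) ^ 2 ≤ (l * t) ^ 2 := pow_le_pow_left₀ h2.le h1 2
          _ = l ^ 2 * t ^ 2 := by ring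
    · rw [Bf, if_neg h0, div_le_iff₀ (hs t ht)]
      have h1 := (cs_sub_sn (mul_pos hl' ht.1) (lt_pi hl hκ ht)).2 hk
      rw [← div_eq_inv_mul, le_div_iff₀ ht.1]
      linarith

end Vale.Agent.P233.H768
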