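import Vale.Agent.P233.H768.Riccati4

/-!
# P233, block E45 (part 5): local square integrability, Lebesgue points
-/

set_option linter.all false

open MeasureTheory Set Filter Topology
open scoped InnerProductSpace

namespace Vale.Agent.P233.H768

section

variable {E : Type*} [NormedAddCommGroup E] [InnerProductSpace ℝ E]

/-- locally square integrable on `(0,1)` -/
structure SqI (w : ℝ → E) : Prop where
  m : AEStronglyMeasurable w (volume.restrict (Ioo (0:ℝ) 1))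
  i : ∀ s ∈ Ioo (0:ℝ) 1, ∀ t ∈ Ioo (0:ℝ) 1, IntervalIntegrable (fun r => ‖w r‖ ^ 2) volume s t

theorem SqI.inner {w z : ℝ → E} (h : SqI w) (k : SqI z) : ∀ s ∈ Ioo (0:ℝ) 1, ∀ t ∈ Ioo (0:ℝ) 1,
    IntervalIntegrable (fun r => ⟪w r, z r⟫_ℝ) volume s t := by
  intro s hs t ht
  have hsub : uIoc s t ⊆ Ioo (0:ℝ) 1 := uIoc_subset_uIcc.trans (uIcc_sub hs ht)
  have h1 := (h.i s hs t ht).add (k.i s hs t ht)
  refine h1.mono_fun ((h.m.inner k.m).mono_measure (Measure.restrict_mono_set _ hsub)) ?_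
  refine Eventually.of_forall fun r => ?_
  show ‖⟪w r, z r⟫_ℝ‖ ≤ ‖‖w r‖ ^ 2 + ‖z r‖ ^ 2‖
  have h2 := abs_real_inner_le_norm (w r) (z r)
  rw [Real.norm_eq_abs, Real.norm_eq_abs, abs_of_nonneg (by positivity : 0 ≤ ‖w r‖ ^ 2 + ‖z r‖ ^ 2)]
  nlinarith [sq_nonneg (‖w r‖ - ‖z r‖), sq_nonneg ‖w r‖, sq_nonneg ‖z r‖]

theorem LAC.prim {F : ℝ → ℝ} (h : ∀ s ∈ Ioo (0:ℝ) 1, ∀ t ∈ Ioo (0:ℝ) 1,
    IntervalIntegrable F volume s t) : LAC (fun x => ∫ r in (1 / 2 : ℝ)..x, F r) F where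
  int := h
  eq s hs t ht := by
    have h0 : (1 / 2 : ℝ) ∈ Ioo (0:ℝ) 1 := by constructor <;> norm_num
    exact intervalIntegral.integral_interval_sub_left (h _ h0 t ht) (h _ h0 s hs)

/-- good points of an a.e. antitone function -/
structure Good (F : ℝ → ℝ) (z : ℝ) : Prop where
  anti : ∀ᵐ t : ℝ, t ∈ Ioo z 1 → F t ≤ F z
  leb : HasDerivAt (fun x => ∫ r in (1 / 2 : ℝ)..x, F r) (F z) z

theorem Good.le {F : ℝ → ℝ} (h : ∀ s ∈ Ioo (0:ℝ) 1, ∀ t ∈ Ioo (0:ℝ) 1,
    IntervalIntegrable F volume s t) {s t : ℝ} (hs : s ∈ Ioo (0:ℝ) 1) (ht : t ∈ Ioo (0:ℝ) 1)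
    (hst : s < t) (h1 : Good F s) (h2 : Good F t) : F t ≤ F s := by
  have h3 := ((hasDerivAt_iff_tendsto_slope_left_right.1 h2.leb).2)
  refine le_of_tendsto h3 ?_
  have h4 : Ioo t 1 ∈ 𝓝[>] t := Ioo_mem_nhdsGT ht.2
  filter_upwards [h4] with x hx
  have hx1 : x ∈ Ioo (0:ℝ) 1 := ⟨ht.1.trans hx.1, hx.2⟩
  rw [slope_def_field, (LAC.prim h).eq t ht x hx1, div_le_iff₀ (by linarith [hx.1])]
  have h5 : ∫ r in t..x, F r ≤ ∫ r in t..x, F s := by
    refine intervalIntegral.integral_mono_ae_restrict hx.1.le (h t ht x hx1)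
      intervalIntegrable_const ?_
    rw [EventuallyLE, ae_restrict_iff' measurableSet_Icc]
    filter_upwards [h1.anti] with r hr hr2
    exact hr ⟨hst.trans_le hr2.1, hr2.2.trans_lt hx.2⟩
  rw [intervalIntegral.integral_const] at h5
  simp only [smul_eq_mul] at h5
  linarith

theorem ae_good {F : ℝ → ℝ} (h : ∀ s ∈ Ioo (0:ℝ) 1, ∀ t ∈ Ioo (0:ℝ) 1,
    IntervalIntegrable F volume s t) (ha : ∀ᵐ s : ℝ, s ∈ Ioo (0:ℝ) 1 →
      ∀ᵐ t : ℝ, t ∈ Ioo s 1 → F t ≤ F s) : ∀ᵐ z : ℝ, z ∈ Ioo (0:ℝ) 1 → Good F z := by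
  filter_upwards [ha, (LAC.prim h).ae_deriv] with z h1 h2 hz
  exact ⟨h1 hz, h2 hz⟩

/-! ### rational combinations -/

theorem cmb_single_sum (w : ℕ → E) (I : Finset ℕ) (x : ℕ → ℚ) :
    cmb w (∑ i ∈ I, Finsupp.single i (x i)) = lc w I (fun i => (x i : ℝ)) := by
  classical
  induction I using Finset.induction_on with
  | empty => simp [cmb, lc]
  | insert j I hj ih =>
    rw [Finset.sum_insert hj, lc, Finset.sum_insert hj]
    unfold cmb at ih ⊢
    rw [Finsupp.sum_add_index' (by simp) (by intros; push_cast; rw [add_smul]),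
      Finsupp.sum_single_index (by simp), ih]
    rfl

theorem dense_rat : DenseRange (fun (x : ℕ → ℚ) (i : ℕ) => (x i : ℝ)) :=
  DenseRange.piMap (f := fun (_ : ℕ) (q : ℚ) => (q : ℝ)) fun _ => Rat.denseRange_cast

/-- continuity of `cb` where the determinant does not vanish -/
theorem continuousAt_cb {G : ℝ → ℕ → ℕ → ℝ} {t : ℝ} {I : Finset ℕ}
    (hG : ∀ i j, ContinuousAt (fun s => G s i j) t)
    (hd : (Matrix.of fun i j : I => G t i j).det ≠ 0) : ContinuousAt (fun s => cb (G s) I) t := by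
  classical
  have hM : ContinuousAt (fun s => (Matrix.of fun i j : I => G s i j : Matrix I I ℝ)) t := by
    refine continuousAt_pi.2 fun i => continuousAt_pi.2 fun j => hG i j
  have hdet : ContinuousAt (fun s => (Matrix.of fun i j : I => G s i j : Matrix I I ℝ).det) t :=
    (continuous_id.matrix_det.continuousAt).comp hM
  have hadj : ContinuousAt
      (fun s => (Matrix.of fun i j : I => G s i j : Matrix I I ℝ).adjugate) t :=
    (continuous_id.matrix_adjugate.continuousAt).comp hM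
  unfold cb
  refine tendsto_finset_sum _ fun i _ => tendsto_finset_sum _ fun j _ => ?_
  refine Tendsto.mul ?_ ((hG j j).sqrt)
  refine Tendsto.abs ?_
  simp only [Matrix.inv_def, Matrix.smul_apply, smul_eq_mul, Ring.inverse_eq_inv']
  refine Tendsto.mul (hdet.inv₀ hd) ?_
  exact (continuousAt_pi.1 (continuousAt_pi.1 hadj i) j)

theorem continuousAt_det {G : ℝ → ℕ → ℕ → ℝ} {t : ℝ} {I : Finset ℕ}
    (hG : ∀ i j, ContinuousAt (fun s => G s i j) t) :
    ContinuousAt (fun s => (Matrix.of fun i j : I => G s i j : Matrix I I ℝ).det) t := by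
  classical
  have hM : ContinuousAt (fun s => (Matrix.of fun i j : I => G s i j : Matrix I I ℝ)) t := by
    refine continuousAt_pi.2 fun i => continuousAt_pi.2 fun j => hG i j
  exact (continuous_id.matrix_det.continuousAt).comp hM

end

end Vale.Agent.P233.H768
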